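import Vale.Agent.H47.ARC.Cube

/-!
# Radical cube zero: the version with vanishing in a finite range of degrees

`A` is an Artin algebra with `(rad A)^3 = 0` whose simple modules are, up to isomorphism, among
`A ⧸ I 1, …, A ⧸ I r`.  If `Ext^i(M, M) = 0` for `1 ≤ i ≤ 2 r + 1` and `Ext^i(M, A) = 0` for
`1 ≤ i ≤ 2 r + 2`, then `M` is projective.  The argument is the one of `arc_cube`; the linear
dependence is found among the `2 r + 1` vectors `p_1, …, p_(2 r + 1)` of a space of dimension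
`2 r`, and only the groups `Ext^1(X_j, X_i)` with `1 ≤ i ≤ j ≤ 2 r + 1` are used.
-/

universe u v

namespace Vale.Agent.H47.ARC

open CategoryTheory Abelian Vale.Agent.H47.Findim

section stab

/-- Among the terms `p 1, …, p (d + 1)` of a sequence in a space of dimension at most `d`, some
term lies in the span of the later ones. -/
theorem exists_mem_span_bdd {E : Type*} [AddCommGroup E] [Module ℚ E] [FiniteDimensional ℚ E]
    (p : ℕ → E) (d : ℕ) (hd : Module.finrank ℚ E ≤ d) :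
    ∃ N, 1 ≤ N ∧ N ≤ d + 1 ∧
      p N ∈ Submodule.span ℚ (p '' {m | N + 1 ≤ m ∧ m ≤ d + 1}) := by
  by_contra hcon
  push Not at hcon
  have key : ∀ j, j ≤ d + 1 →
      j ≤ Module.finrank ℚ (Submodule.span ℚ (p '' {m | d + 2 - j ≤ m ∧ m ≤ d + 1})) := by
    intro j
    induction j with
    | zero =>
      intro _
      exact Nat.zero_le _
    | succ j ih =>
      intro hj
      have h1 := ih (by omega)
      have h2 := hcon (d + 1 - j) (by omega) (by omega)
      have hlt : Submodule.span ℚ (p '' {m | d + 2 - j ≤ m ∧ m ≤ d + 1}) <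
          Submodule.span ℚ (p '' {m | d + 2 - (j + 1) ≤ m ∧ m ≤ d + 1}) := by
        refine lt_of_le_of_ne ?_ ?_
        · apply Submodule.span_mono
          apply Set.image_mono
          intro m hm
          exact ⟨by have := hm.1; omega, hm.2⟩
        · intro heq
          apply h2
          have h3 : p (d + 1 - j) ∈
              Submodule.span ℚ (p '' {m | d + 2 - (j + 1) ≤ m ∧ m ≤ d + 1}) :=
            Submodule.subset_span (Set.mem_image_of_mem p ⟨by omega, by omega⟩)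
          rw [← heq] at h3
          have h4 : {m | d + 1 - j + 1 ≤ m ∧ m ≤ d + 1} = {m | d + 2 - j ≤ m ∧ m ≤ d + 1} := by
            ext m
            simp only [Set.mem_ofPred_eq]
            omega
          rw [h4]
          exact h3
      have h5 := Submodule.finrank_lt_finrank_of_lt hlt
      omega
  have h6 := key (d + 1) le_rfl
  have h7 := Submodule.finrank_le
    (Submodule.span ℚ (p '' {m | d + 2 - (d + 1) ≤ m ∧ m ≤ d + 1}))
  omega

end stab

section syzb

variable {A : Type u} [Ring A] [IsArtinianRing A]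

/-- Dimension shifting along the syzygy sequence, in a bounded range of degrees. -/
theorem syz_ext_base_bdd (M : FinMod A) (Y : Type u) [AddCommGroup Y] [Module A Y] (c : ℕ)
    (h : ∀ n : ℕ, n + 1 ≤ c → ∀ x : Ext M.1 (ModuleCat.of A Y) (n + 1), x = 0) :
    ∀ (j n : ℕ), n + 1 + j ≤ c → ∀ x : Ext (syz M j).1 (ModuleCat.of A Y) (n + 1), x = 0 := by
  intro j
  induction j with
  | zero =>
    intro n hn
    exact h n (by omega)
  | succ j ih =>
    intro n hn
    have := (cov_spec (syz M j)).1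
    exact ext_zero_ker (covMap (syz M j)) (cov_spec (syz M j)).2.2.1 n (ih (n + 1) (by omega))

theorem syz_ext_proj_bdd (M : FinMod A) (c : ℕ)
    (hMA : ∀ n : ℕ, n + 1 ≤ c → ∀ x : Ext M.1 (ModuleCat.of A A) (n + 1), x = 0)
    (T : Type u) [AddCommGroup T] [Module A T] [Module.Projective A T] [Module.Finite A T] :
    ∀ (j n : ℕ), n + 1 + j ≤ c → ∀ x : Ext (syz M j).1 (ModuleCat.of A T) (n + 1), x = 0 :=
  syz_ext_base_bdd M T c (fun n hn => ext_zero_proj M.1 (n + 1) (hMA n hn) T)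

/-- The groups `Ext^(n+1)(X_j, X_i)` with `i ≤ j` vanish as soon as `Ext^k(M, M) = 0` for
`1 ≤ k ≤ a`, `Ext^k(M, A) = 0` for `1 ≤ k ≤ b`, `n + 1 + (j - i) ≤ a` and `n + 1 + j ≤ b`. -/
theorem syz_ext_bdd (M : FinMod A) (a b : ℕ)
    (hMM : ∀ n : ℕ, n + 1 ≤ a → ∀ x : Ext M.1 M.1 (n + 1), x = 0)
    (hMA : ∀ n : ℕ, n + 1 ≤ b → ∀ x : Ext M.1 (ModuleCat.of A A) (n + 1), x = 0) :
    ∀ (i j : ℕ), i ≤ j → ∀ n : ℕ, n + 1 + (j - i) ≤ a → n + 1 + j ≤ b →
      ∀ x : Ext (syz M j).1 (syz M i).1 (n + 1), x = 0 := by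
  intro i
  induction i with
  | zero =>
    intro j _ n ha _
    exact syz_ext_base_bdd M M.1 a hMM j n (by omega)
  | succ i ih =>
    intro j hij n ha hb
    obtain ⟨j', rfl⟩ : ∃ j', j = j' + 1 := ⟨j - 1, by omega⟩
    have hproj := (cov_spec (syz M i)).1
    have hfin := (cov_spec (syz M i)).2.1
    have hproj' := (cov_spec (syz M j')).1
    cases n with
    | zero =>
      exact ext_zero_ker_ker (covMap (syz M j')) (cov_spec (syz M j')).2.2.1
        (covMap (syz M i)) (cov_spec (syz M i)).2.2.1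
        (ih j' (by omega) 0 (by omega) (by omega))
        (syz_ext_proj_bdd M b hMA (cov (syz M i)) (j' + 1) 0 (by omega))
    | succ n =>
      exact ext_zero_ker_high (covMap (syz M i)) (cov_spec (syz M i)).2.2.1 (syz M (j' + 1)).1 n
        (ih (j' + 1) (by omega) n (by omega) (by omega))
        (syz_ext_proj_bdd M b hMA (cov (syz M i)) (j' + 1) (n + 1) (by omega))

/-- If one of the first `b` syzygies is projective then so is the module. -/
theorem proj_of_syz_proj_bdd (M : FinMod A) (b : ℕ)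
    (hMA : ∀ n : ℕ, n + 1 ≤ b → ∀ x : Ext M.1 (ModuleCat.of A A) (n + 1), x = 0) :
    ∀ i : ℕ, i ≤ b → Module.Projective A (syz M i).1 → Module.Projective A M.1 := by
  intro i
  induction i with
  | zero => exact fun _ => id
  | succ i ih =>
    intro hi hp
    apply ih (by omega)
    have hp' : Module.Projective A (LinearMap.ker (covMap (syz M i))) := hp
    have hfin := ker_finite (syz M i)
    have hproj := (cov_spec (syz M i)).1
    have hz := syz_ext_proj_bdd M b hMA (LinearMap.ker (covMap (syz M i))) i 0 (by omega)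
    exact proj_of_ext_zero_ker (covMap (syz M i)) (cov_spec (syz M i)).2.2.1 hz

end syzb

section mainb

variable {A : Type u} [Ring A]

/-- The Auslander-Reiten conjecture for Artin algebras with radical cube zero, with vanishing
in a finite range of degrees determined by the number of simple modules. -/
theorem arc_cube_bdd {R : Type v} [CommRing R] [IsArtinianRing R] [Algebra R A]
    [Module.Finite R A] (hJ : Ring.jacobson A ^ 3 = ⊥)
    {r : ℕ} (I : Fin r → Ideal A)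
    (hI : ∀ (S : Type u) [AddCommGroup S] [Module A S] [IsSimpleModule A S],
      ∃ k, Nonempty (S ≃ₗ[A] (A ⧸ I k)))
    (M : ModuleCat.{u} A) [hfin : Module.Finite A M]
    (hMM : ∀ i : ℕ, 1 ≤ i → i ≤ 2 * r + 1 → ∀ x : Ext M M i, x = 0)
    (hMA : ∀ i : ℕ, 1 ≤ i → i ≤ 2 * r + 2 → ∀ x : Ext M (ModuleCat.of A A) i, x = 0) :
    Module.Projective A M := by
  classical
  by_contra hnp
  have hArt : IsArtinianRing A := IsArtinianRing.of_finite R A
  let M₀ : FinMod A := ⟨M, hfin⟩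
  have hMM' : ∀ n : ℕ, n + 1 ≤ 2 * r + 1 → ∀ x : Ext M₀.1 M₀.1 (n + 1), x = 0 :=
    fun n hn => hMM (n + 1) (by omega) hn
  have hMA' : ∀ n : ℕ, n + 1 ≤ 2 * r + 2 → ∀ x : Ext M₀.1 (ModuleCat.of A A) (n + 1), x = 0 :=
    fun n hn => hMA (n + 1) (by omega) hn
  have hD := syz_ext_bdd M₀ (2 * r + 1) (2 * r + 2) hMM' hMA'
  have hNT : ∀ i, i ≤ 2 * r + 2 → Nontrivial (syz M₀ i).1 := by
    intro i hi
    by_contra hsub
    rw [not_nontrivial_iff_subsingleton] at hsub
    apply hnp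
    apply proj_of_syz_proj_bdd M₀ (2 * r + 2) hMA' i hi
    infer_instance
  have hfinm : ∀ m, Module.Finite A (syz M₀ m).1 := fun m => (syz M₀ m).2
  -- lengths of the modules of homomorphisms from the syzygies to the simple modules
  have hfl : ∀ (m : ℕ) (k : Fin r),
      Module.length R ((syz M₀ m).1 →ₗ[A] (A ⧸ I k)) ≠ ⊤ := by
    intro m k
    have := hfinm m
    exact hom_length_ne_top
  let μ : ℕ → Fin r → ℚ := fun m k =>
    ((Module.length R ((syz M₀ m).1 →ₗ[A] (A ⧸ I k))).toNat : ℚ)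
  let p : ℕ → (Fin r → ℚ) × (Fin r → ℚ) := fun m => (μ m, μ (m + 1))
  have hfr : Module.finrank ℚ ((Fin r → ℚ) × (Fin r → ℚ)) ≤ 2 * r := by
    rw [Module.finrank_prod, Module.finrank_fin_fun]
    omega
  obtain ⟨N, hN1, hN2, hNmem⟩ := exists_mem_span_bdd p (2 * r) hfr
  obtain ⟨N', rfl⟩ : ∃ N', N = N' + 1 := ⟨N - 1, by omega⟩
  -- the module `X = X_(N'+1)` and its radical
  let _ : Module R (syz M₀ (N' + 1)).1 := Module.compHom _ (algebraMap R A)
  have hst : IsScalarTower R A (syz M₀ (N' + 1)).1 :=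
    IsScalarTower.of_algebraMap_smul (fun _ _ => rfl)
  have hfX := hfinm (N' + 1)
  have hntX := hNT (N' + 1) (by omega)
  have hX2 : ∀ a ∈ Ring.jacobson A, ∀ b ∈ Ring.jacobson A, ∀ x : (syz M₀ (N' + 1)).1,
      a • b • x = 0 := by
    intro a ha b hb x
    have h1 : ∀ y : LinearMap.ker (covMap (syz M₀ N')), a • b • y = 0 := by
      intro y
      apply Subtype.ext
      exact cube_zero_smul hJ ha hb ((cov_spec (syz M₀ N')).2.2.2 y.2)
    exact h1 x
  have hJU := killed_of_sq hX2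
  obtain ⟨k₀, hk₀⟩ := exists_not_mem_of_sq hX2
  -- the relations
  have hrel : ∀ m, N' + 2 ≤ m → m ≤ 2 * r + 1 →
      Module.length R ((syz M₀ m).1 →ₗ[A]
        (syz M₀ (N' + 1)).1 ⧸ (Ring.jacobson A • ⊤ : Submodule A (syz M₀ (N' + 1)).1)) =
      Module.length R ((syz M₀ (m + 1)).1 →ₗ[A]
        (Ring.jacobson A • ⊤ : Submodule A (syz M₀ (N' + 1)).1)) := by
    intro m hm hm2
    obtain ⟨m', rfl⟩ : ∃ m', m = m' + 1 := ⟨m - 1, by omega⟩
    have hproj := (cov_spec (syz M₀ (m' + 1))).1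
    have hi : ∀ (f : LinearMap.ker (covMap (syz M₀ m')) →ₗ[A] (syz M₀ (N' + 1)).1)
        (k : LinearMap.ker (covMap (syz M₀ m'))),
        f k ∈ (Ring.jacobson A • ⊤ : Submodule A (syz M₀ (N' + 1)).1) := by
      intro f k
      obtain ⟨h, hh⟩ := extend_of_ext_zero (covMap (syz M₀ m'))
        (cov_spec (syz M₀ m')).2.2.1 (hD (N' + 1) m' (by omega) 0 (by omega) (by omega)) f
      have hk : (k : cov (syz M₀ m')) ∈ (Ring.jacobson A • ⊤ : Submodule A (cov (syz M₀ m'))) :=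
        (cov_spec (syz M₀ m')).2.2.2 k.2
      have h3 := smul_top_map_mem (Ring.jacobson A) h hk
      rw [hh k] at h3
      exact h3
    exact lemmaC_eq (R := R) (covMap (syz M₀ (m' + 1))) (cov_spec (syz M₀ (m' + 1))).2.2.1
      (Ring.jacobson A • ⊤ : Submodule A (syz M₀ (N' + 1)).1)
      (cov_spec (syz M₀ (m' + 1))).2.2.2 hJU hi
      (extend_of_ext_zero (covMap (syz M₀ (m' + 1))) (cov_spec (syz M₀ (m' + 1))).2.2.1
        (hD (N' + 1) (m' + 1) (by omega) 0 (by omega) (by omega)))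
  have hstrict : Module.length R ((syz M₀ (N' + 2)).1 →ₗ[A]
        (Ring.jacobson A • ⊤ : Submodule A (syz M₀ (N' + 1)).1)) + 1 ≤
      Module.length R ((syz M₀ (N' + 1)).1 →ₗ[A]
        (syz M₀ (N' + 1)).1 ⧸ (Ring.jacobson A • ⊤ : Submodule A (syz M₀ (N' + 1)).1)) := by
    have hproj := (cov_spec (syz M₀ (N' + 1))).1
    exact lemmaC_lt (R := R) (covMap (syz M₀ (N' + 1))) (cov_spec (syz M₀ (N' + 1))).2.2.1
      (Ring.jacobson A • ⊤ : Submodule A (syz M₀ (N' + 1)).1)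
      (cov_spec (syz M₀ (N' + 1))).2.2.2 hJU
      (extend_of_ext_zero (covMap (syz M₀ (N' + 1))) (cov_spec (syz M₀ (N' + 1))).2.2.1
        (hD (N' + 1) (N' + 1) le_rfl 0 (by omega) (by omega))) LinearMap.id k₀ hk₀
  -- decompositions of the top and the radical of `X`
  obtain ⟨nV, σV, ⟨eV⟩⟩ := killed_decomp I hI
    ((syz M₀ (N' + 1)).1 ⧸ (Ring.jacobson A • ⊤ : Submodule A (syz M₀ (N' + 1)).1)) quot_killed
  obtain ⟨nU, σU, ⟨eU⟩⟩ := killed_decomp I hI
    (Ring.jacobson A • ⊤ : Submodule A (syz M₀ (N' + 1)).1) (sub_killed hJU)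
  have hcast : ∀ (m : ℕ) (k : Fin r),
      Module.length R ((syz M₀ m).1 →ₗ[A] (A ⧸ I k)) =
        (((Module.length R ((syz M₀ m).1 →ₗ[A] (A ⧸ I k))).toNat : ℕ) : ℕ∞) :=
    fun m k => (ENat.natCast_toNat (hfl m k)).symm
  have hV : ∀ m, Module.length R ((syz M₀ m).1 →ₗ[A]
        (syz M₀ (N' + 1)).1 ⧸ (Ring.jacobson A • ⊤ : Submodule A (syz M₀ (N' + 1)).1)) =
      ((∑ c, (Module.length R ((syz M₀ m).1 →ₗ[A] (A ⧸ I (σV c)))).toNat : ℕ) : ℕ∞) := by
    intro m
    rw [hom_pi_length' (R := R) I σV eV, Nat.cast_sum]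
    exact Finset.sum_congr rfl (fun c _ => hcast m (σV c))
  have hU : ∀ m, Module.length R ((syz M₀ m).1 →ₗ[A]
        (Ring.jacobson A • ⊤ : Submodule A (syz M₀ (N' + 1)).1)) =
      ((∑ c, (Module.length R ((syz M₀ m).1 →ₗ[A] (A ⧸ I (σU c)))).toNat : ℕ) : ℕ∞) := by
    intro m
    rw [hom_pi_length' (R := R) I σU eU, Nat.cast_sum]
    exact Finset.sum_congr rfl (fun c _ => hcast m (σU c))
  -- the linear functional
  let Ψ : ((Fin r → ℚ) × (Fin r → ℚ)) →ₗ[ℚ] ℚ :=
    (∑ c : Fin nV, LinearMap.proj (σV c)) ∘ₗ LinearMap.fst ℚ (Fin r → ℚ) (Fin r → ℚ) -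
      (∑ c : Fin nU, LinearMap.proj (σU c)) ∘ₗ LinearMap.snd ℚ (Fin r → ℚ) (Fin r → ℚ)
  have hΨ : ∀ m, Ψ (p m) = (∑ c, μ m (σV c)) - ∑ c, μ (m + 1) (σU c) := by
    intro m
    simp [Ψ, p]
  have hΨ0 : ∀ m, N' + 2 ≤ m → m ≤ 2 * r + 1 → Ψ (p m) = 0 := by
    intro m hm hm2
    have h1 := hrel m hm hm2
    rw [hV m, hU (m + 1)] at h1
    have h2 : (∑ c, (Module.length R ((syz M₀ m).1 →ₗ[A] (A ⧸ I (σV c)))).toNat : ℕ) =
        ∑ c, (Module.length R ((syz M₀ (m + 1)).1 →ₗ[A] (A ⧸ I (σU c)))).toNat := by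
      exact_mod_cast h1
    have h3 : (∑ c, μ m (σV c)) = ∑ c, μ (m + 1) (σU c) := by
      have := congrArg (fun z : ℕ => (z : ℚ)) h2
      simpa [μ] using this
    rw [hΨ, h3, sub_self]
  have hker : Submodule.span ℚ (p '' {m | N' + 1 + 1 ≤ m ∧ m ≤ 2 * r + 1}) ≤ LinearMap.ker Ψ := by
    rw [Submodule.span_le]
    rintro _ ⟨m, hm, rfl⟩
    exact LinearMap.mem_ker.mpr (hΨ0 m hm.1 hm.2)
  have hzero : Ψ (p (N' + 1)) = 0 := LinearMap.mem_ker.mp (hker hNmem)
  have h1 := hstrict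
  rw [hV (N' + 1), hU (N' + 2)] at h1
  have h2 : (∑ c, (Module.length R ((syz M₀ (N' + 2)).1 →ₗ[A] (A ⧸ I (σU c)))).toNat : ℕ) + 1 ≤
      ∑ c, (Module.length R ((syz M₀ (N' + 1)).1 →ₗ[A] (A ⧸ I (σV c)))).toNat := by
    exact_mod_cast h1
  have h3 : (∑ c, μ (N' + 1 + 1) (σU c)) + 1 ≤ ∑ c, μ (N' + 1) (σV c) := by
    have := (Nat.cast_le (α := ℚ)).mpr h2
    simpa [μ] using this
  rw [hΨ] at hzero
  linarith

end mainb

end Vale.Agent.H47.ARC
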