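import Vale.Agent.H47.ARC.CoreArg

/-!
# From vanishing of `Ext` to extension properties, and the final statement

A finitely generated module `M` over a local Artin algebra with radical cube zero such that
`Ext^i(M, M) = 0` for `1 ≤ i ≤ 3` and `Ext^i(M, A) = 0` for `1 ≤ i ≤ 4` is projective.
-/

universe u v

namespace Vale.Agent.H47.ARC

open CategoryTheory Abelian Vale.Agent.H47.Findim

variable {A : Type u} [Ring A]

section ext

variable {P N Y P' N' : Type u} [AddCommGroup P] [Module A P] [AddCommGroup N] [Module A N]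
  [AddCommGroup Y] [Module A Y] [AddCommGroup P'] [Module A P'] [AddCommGroup N'] [Module A N']

/-- The short complex `0 → ker π → P → N → 0`. -/
noncomputable abbrev sesOf (π : P →ₗ[A] N) : ShortComplex (ModuleCat.{u} A) :=
  ShortComplex.mk (ModuleCat.ofHom (LinearMap.ker π).subtype) (ModuleCat.ofHom π)
    (by
      rw [← ModuleCat.ofHom_comp, (LinearMap.exact_subtype_ker_map π).linearMap_comp_eq_zero]
      rfl)

theorem sesOf_shortExact (π : P →ₗ[A] N) (hπ : Function.Surjective π) : (sesOf π).ShortExact :=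
  shortExact_of (Submodule.subtype_injective _) (LinearMap.exact_subtype_ker_map π) hπ

/-- If `Ext^1(N, Y) = 0` then every map `ker π → Y` extends to `P`. -/
theorem extend_of_ext_zero (π : P →ₗ[A] N) (hπ : Function.Surjective π)
    (hz : ∀ x : Ext (ModuleCat.of A N) (ModuleCat.of A Y) 1, x = 0)
    (f : LinearMap.ker π →ₗ[A] Y) : ∃ h : P →ₗ[A] Y, ∀ x : LinearMap.ker π, h x = f x := by
  have hS := sesOf_shortExact π hπ
  obtain ⟨x₂, hx₂⟩ := Ext.contravariant_sequence_exact₁ hS (ModuleCat.of A Y)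
    (Ext.mk₀ (ModuleCat.ofHom f)) (rfl : 1 + 0 = 1) (hz _)
  obtain ⟨g, rfl⟩ := (Ext.mk₀_bijective _ _).2 x₂
  rw [Ext.mk₀_comp_mk₀] at hx₂
  have h3 := (Ext.mk₀_bijective _ _).1 hx₂
  refine ⟨g.hom, fun x => ?_⟩
  have h4 := congrArg (fun φ => φ.hom x) h3
  exact h4

/-- Dimension shifting in the first variable. -/
theorem ext_zero_ker [Module.Projective A P] (π : P →ₗ[A] N) (hπ : Function.Surjective π) (n : ℕ)
    (hz : ∀ x : Ext (ModuleCat.of A N) (ModuleCat.of A Y) (n + 2), x = 0) :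
    ∀ x : Ext (ModuleCat.of A (LinearMap.ker π)) (ModuleCat.of A Y) (n + 1), x = 0 := by
  intro x
  have hS := sesOf_shortExact π hπ
  obtain ⟨x₂, hx₂⟩ := Ext.contravariant_sequence_exact₁ hS (ModuleCat.of A Y) x
    (by omega : 1 + (n + 1) = n + 2) (hz _)
  have hproj : Projective (ModuleCat.of A P) := (IsProjective.iff_projective P).mp inferInstance
  have hx₂0 : x₂ = 0 := @Ext.eq_zero_of_projective _ _ _ _ (ModuleCat.of A P) _ _ hproj x₂
  rw [← hx₂, hx₂0, Ext.comp_zero]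

/-- The covariant step. -/
theorem ext_zero_ker_ker [Module.Projective A P] (π : P →ₗ[A] N) (hπ : Function.Surjective π)
    (π' : P' →ₗ[A] N') (hπ' : Function.Surjective π')
    (h1 : ∀ x : Ext (ModuleCat.of A N) (ModuleCat.of A N') 1, x = 0)
    (h2 : ∀ x : Ext (ModuleCat.of A (LinearMap.ker π)) (ModuleCat.of A P') 1, x = 0) :
    ∀ x : Ext (ModuleCat.of A (LinearMap.ker π)) (ModuleCat.of A (LinearMap.ker π')) 1,
      x = 0 := by
  intro x
  have hS' := sesOf_shortExact π' hπ'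
  obtain ⟨x₃, hx₃⟩ := Ext.covariant_sequence_exact₁ (ModuleCat.of A (LinearMap.ker π)) hS' x
    (h2 _) (rfl : 0 + 1 = 1)
  obtain ⟨g, rfl⟩ := (Ext.mk₀_bijective _ _).2 x₃
  obtain ⟨h, hh⟩ := extend_of_ext_zero π hπ h1 g.hom
  obtain ⟨l, hl⟩ := Module.projective_lifting_property π' h hπ'
  have hg : g = ModuleCat.ofHom (l ∘ₗ (LinearMap.ker π).subtype) ≫ (sesOf π').g := by
    ext y
    have e1 := hh y
    have e2 := LinearMap.congr_fun hl (y : P)
    show g.hom y = π' (l (y : P))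
    rw [← e1]
    exact e2.symm
  rw [← hx₃, hg, ← Ext.mk₀_comp_mk₀, Ext.comp_assoc_of_second_deg_zero, hS'.comp_extClass,
    Ext.comp_zero]

end ext

section proj

theorem ext_zero_retract {X Q Z : ModuleCat.{u} A} (i : Q ⟶ Z) (p : Z ⟶ Q) (hip : i ≫ p = 𝟙 Q)
    (n : ℕ) (hz : ∀ x : Ext X Z n, x = 0) : ∀ x : Ext X Q n, x = 0 := by
  intro x
  have h1 : x = (x.comp (Ext.mk₀ i) (add_zero n)).comp (Ext.mk₀ p) (add_zero n) := by
    rw [Ext.comp_assoc_of_third_deg_zero, Ext.mk₀_comp_mk₀, hip, Ext.comp_mk₀_id]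
  rw [h1, hz (x.comp (Ext.mk₀ i) (add_zero n)), Ext.zero_comp]

theorem ext_zero_mid {X : ModuleCat.{u} A} {S : ShortComplex (ModuleCat.{u} A)}
    (hS : S.ShortExact) (n : ℕ) (h1 : ∀ x : Ext X S.X₁ n, x = 0)
    (h3 : ∀ x : Ext X S.X₃ n, x = 0) : ∀ x : Ext X S.X₂ n, x = 0 := by
  intro x
  obtain ⟨x₁, hx₁⟩ := Ext.covariant_sequence_exact₂ X hS x (h3 _)
  rw [← hx₁, h1 x₁, Ext.zero_comp]

theorem ext_zero_pi (X : ModuleCat.{u} A) (n : ℕ)
    (hz : ∀ x : Ext X (ModuleCat.of A A) n, x = 0) (m : ℕ) :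
    ∀ x : Ext X (ModuleCat.of A (Fin m → A)) n, x = 0 := by
  induction m with
  | zero =>
    intro x
    have h0 : (𝟙 (ModuleCat.of A (Fin 0 → A))) = 0 :=
      (ModuleCat.isZero_of_subsingleton _).eq_of_src _ _
    rw [← Ext.comp_mk₀_id x, h0, Ext.mk₀_zero, Ext.comp_zero]
  | succ m ih =>
    have hS := shortExact_of (f := LinearMap.inl A A (Fin m → A))
      (g := LinearMap.snd A A (Fin m → A)) LinearMap.inl_injective (fun x => by
        constructor
        · intro hx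
          exact ⟨x.1, Prod.ext rfl (by simpa using hx.symm)⟩
        · rintro ⟨y, rfl⟩
          simp) LinearMap.snd_surjective
    have hmid := ext_zero_mid (X := X) hS n hz ih
    let e : (A × (Fin m → A)) ≃ₗ[A] (Fin (m + 1) → A) := Fin.consLinearEquiv A (fun _ => A)
    refine ext_zero_retract (ModuleCat.ofHom e.symm.toLinearMap) (ModuleCat.ofHom e.toLinearMap)
      ?_ n hmid
    rw [← ModuleCat.ofHom_comp]
    have : e.toLinearMap ∘ₗ e.symm.toLinearMap = LinearMap.id := by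
      ext x
      simp
    rw [this]
    rfl

theorem ext_zero_proj (X : ModuleCat.{u} A) (n : ℕ)
    (hz : ∀ x : Ext X (ModuleCat.of A A) n, x = 0)
    (Q : Type u) [AddCommGroup Q] [Module A Q] [Module.Projective A Q] [Module.Finite A Q] :
    ∀ x : Ext X (ModuleCat.of A Q) n, x = 0 := by
  obtain ⟨m, f, hf⟩ := Module.Finite.exists_fin' A Q
  obtain ⟨s, hs⟩ := Module.projective_lifting_property f LinearMap.id hf
  refine ext_zero_retract (ModuleCat.ofHom s) (ModuleCat.ofHom f) ?_ n (ext_zero_pi X n hz m)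
  rw [← ModuleCat.ofHom_comp, hs]
  rfl

end proj

section radical

theorem jac_mul_mem' {r a : A} {i : ℕ} (hr : r ∈ Ring.jacobson A)
    (ha : a ∈ Ring.jacobson A ^ i) : r * a ∈ Ring.jacobson A ^ (i + 1) := by
  have h : r * a ∈ Ring.jacobson A * Ring.jacobson A ^ i := Ideal.mul_mem_mul hr ha
  rcases Nat.eq_zero_or_pos i with rfl | hi
  · rw [zero_add, Submodule.pow_one]
    exact Ideal.mul_le_left h
  · have h2 : Ring.jacobson A ^ (i + 1) = Ring.jacobson A * Ring.jacobson A ^ i :=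
      Submodule.pow_succ' (M := Ring.jacobson A) (n := i) (by omega)
    rw [h2]
    exact h

theorem cube_zero_smul (hJ : Ring.jacobson A ^ 3 = ⊥) {P : Type u} [AddCommGroup P] [Module A P]
    {a b : A} (ha : a ∈ Ring.jacobson A) (hb : b ∈ Ring.jacobson A) {x : P}
    (hx : x ∈ (Ring.jacobson A • ⊤ : Submodule A P)) : a • b • x = 0 := by
  refine Submodule.smul_induction_on hx (fun c hc y _ => ?_) (fun y z hy hz => ?_)
  · have hc1 : c ∈ Ring.jacobson A ^ 1 := by
      rw [Submodule.pow_one]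
      exact hc
    have h3 : a * (b * c) ∈ Ring.jacobson A ^ 3 := jac_mul_mem' ha (jac_mul_mem' hb hc1)
    rw [hJ] at h3
    have h4 : a * (b * c) = 0 := by simpa using h3
    rw [smul_smul, smul_smul, mul_assoc, h4, zero_smul]
  · rw [smul_add, smul_add, hy, hz, add_zero]

end radical

/-- The Auslander-Reiten conjecture for local Artin algebras with radical cube zero, with
vanishing required only in finitely many degrees. -/
theorem arc_local {R : Type v} [CommRing R] [IsArtinianRing R] [Algebra R A]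
    [Module.Finite R A] [IsLocalRing A] (hJ : Ring.jacobson A ^ 3 = ⊥)
    (M : ModuleCat.{u} A) [Module.Finite A M]
    (hMM : ∀ i : ℕ, 1 ≤ i → i ≤ 3 → ∀ x : Ext M M i, x = 0)
    (hMA : ∀ i : ℕ, 1 ≤ i → i ≤ 4 → ∀ x : Ext M (ModuleCat.of A A) i, x = 0) :
    Module.Projective A M := by
  classical
  by_contra hnp
  have hArt : IsArtinianRing A := IsArtinianRing.of_finite R A
  have hMQ : ∀ (T : Type u) [AddCommGroup T] [Module A T] [Module.Projective A T]
      [Module.Finite A T] (i : ℕ), 1 ≤ i → i ≤ 4 → ∀ x : Ext M (ModuleCat.of A T) i, x = 0 :=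
    fun T _ _ _ _ i hi hi' => ext_zero_proj M i (hMA i hi hi') T
  obtain ⟨Q, ρ, hQ, hQf, hρ, hkρ⟩ := exists_min_pres (A := A) M
  obtain ⟨P₀, π₀, hP₀, hP₀f, hπ₀, hk₀⟩ := exists_min_pres (A := A) (LinearMap.ker ρ)
  obtain ⟨P₁, π₁, hP₁, hP₁f, hπ₁, hk₁⟩ := exists_min_pres (A := A) (LinearMap.ker π₀)
  obtain ⟨P₂, π₂, hP₂, hP₂f, hπ₂, hk₂⟩ := exists_min_pres (A := A) (LinearMap.ker π₁)
  let _ : Module R Q := Module.compHom Q (algebraMap R A)
  have : IsScalarTower R A Q := IsScalarTower.of_algebraMap_smul (fun _ _ => rfl)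
  let _ : Module R P₀ := Module.compHom P₀ (algebraMap R A)
  have : IsScalarTower R A P₀ := IsScalarTower.of_algebraMap_smul (fun _ _ => rfl)
  -- the syzygies are nonzero
  have hX : Nontrivial (LinearMap.ker ρ) := by
    by_contra hsub
    rw [not_nontrivial_iff_subsingleton] at hsub
    apply hnp
    have hinj : Function.Injective ρ := by
      rw [← LinearMap.ker_eq_bot]
      exact Submodule.subsingleton_iff_eq_bot.mp hsub
    exact Module.Projective.of_equiv (LinearEquiv.ofBijective ρ ⟨hinj, hρ⟩)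
  have hK : Nontrivial (LinearMap.ker π₀) := by
    by_contra hsub
    rw [not_nontrivial_iff_subsingleton] at hsub
    apply hnp
    have hinj : Function.Injective π₀ := by
      rw [← LinearMap.ker_eq_bot]
      exact Submodule.subsingleton_iff_eq_bot.mp hsub
    have hXproj : Module.Projective A (LinearMap.ker ρ) :=
      Module.Projective.of_equiv (LinearEquiv.ofBijective π₀ ⟨hinj, hπ₀⟩)
    have hz := hMQ (LinearMap.ker ρ) 1 le_rfl (by norm_num)
    obtain ⟨h, hh⟩ := extend_of_ext_zero ρ hρ hz LinearMap.id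
    let s : M →ₗ[A] Q := desc ρ hρ (LinearMap.id - (LinearMap.ker ρ).subtype ∘ₗ h) (by
      intro x hx
      have h5 := hh ⟨x, hx⟩
      rw [LinearMap.mem_ker, LinearMap.sub_apply, LinearMap.id_apply, LinearMap.comp_apply, h5]
      simp)
    refine Module.Projective.of_split s ρ ?_
    ext m
    obtain ⟨q, rfl⟩ := hρ m
    rw [LinearMap.comp_apply, desc_apply, LinearMap.id_apply, LinearMap.sub_apply,
      LinearMap.id_apply, LinearMap.comp_apply, map_sub]
    have h6 : ρ ((LinearMap.ker ρ).subtype (h q)) = 0 := (h q).2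
    rw [h6, sub_zero]
  -- Loewy length at most two
  have hX2 : ∀ a ∈ Ring.jacobson A, ∀ b ∈ Ring.jacobson A, ∀ x : LinearMap.ker ρ,
      a • b • x = 0 := by
    intro a ha b hb x
    apply Subtype.ext
    exact cube_zero_smul hJ ha hb (hkρ x.2)
  have hK2 : ∀ a ∈ Ring.jacobson A, ∀ b ∈ Ring.jacobson A, ∀ x : LinearMap.ker π₀,
      a • b • x = 0 := by
    intro a ha b hb x
    apply Subtype.ext
    exact cube_zero_smul hJ ha hb (hk₀ x.2)
  -- vanishing of the relevant extension groups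
  have a1 : ∀ x : Ext (ModuleCat.of A M) (ModuleCat.of A M) 1, x = 0 :=
    hMM 1 le_rfl (by norm_num)
  have xm1 : ∀ x : Ext (ModuleCat.of A (LinearMap.ker ρ)) (ModuleCat.of A M) 1, x = 0 :=
    ext_zero_ker ρ hρ 0 (hMM 2 (by norm_num) (by norm_num))
  have xm2 : ∀ x : Ext (ModuleCat.of A (LinearMap.ker ρ)) (ModuleCat.of A M) 2, x = 0 :=
    ext_zero_ker ρ hρ 1 (hMM 3 (by norm_num) (by norm_num))
  have k1m1 : ∀ x : Ext (ModuleCat.of A (LinearMap.ker π₀)) (ModuleCat.of A M) 1, x = 0 :=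
    ext_zero_ker π₀ hπ₀ 0 xm2
  have xq : ∀ (T : Type u) [AddCommGroup T] [Module A T] [Module.Projective A T]
      [Module.Finite A T] (i : ℕ), i ≤ 2 →
      ∀ x : Ext (ModuleCat.of A (LinearMap.ker ρ)) (ModuleCat.of A T) (i + 1), x = 0 :=
    fun T _ _ _ _ i hi => ext_zero_ker ρ hρ i (hMQ T (i + 2) (by omega) (by omega))
  have k1q : ∀ (T : Type u) [AddCommGroup T] [Module A T] [Module.Projective A T]
      [Module.Finite A T] (i : ℕ), i ≤ 1 →
      ∀ x : Ext (ModuleCat.of A (LinearMap.ker π₀)) (ModuleCat.of A T) (i + 1), x = 0 :=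
    fun T _ _ _ _ i hi => ext_zero_ker π₀ hπ₀ i (xq T (i + 1) (by omega))
  have k2q : ∀ (T : Type u) [AddCommGroup T] [Module A T] [Module.Projective A T]
      [Module.Finite A T],
      ∀ x : Ext (ModuleCat.of A (LinearMap.ker π₁)) (ModuleCat.of A T) 1, x = 0 :=
    fun T _ _ _ _ => ext_zero_ker π₁ hπ₁ 0 (k1q T 1 le_rfl)
  have e11 : ∀ x : Ext (ModuleCat.of A (LinearMap.ker ρ)) (ModuleCat.of A (LinearMap.ker ρ)) 1,
      x = 0 := ext_zero_ker_ker ρ hρ ρ hρ a1 (xq Q 0 (by omega))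
  have e21 : ∀ x : Ext (ModuleCat.of A (LinearMap.ker π₀)) (ModuleCat.of A (LinearMap.ker ρ)) 1,
      x = 0 := ext_zero_ker_ker π₀ hπ₀ ρ hρ xm1 (k1q Q 0 (by omega))
  have e31 : ∀ x : Ext (ModuleCat.of A (LinearMap.ker π₁)) (ModuleCat.of A (LinearMap.ker ρ)) 1,
      x = 0 := ext_zero_ker_ker π₁ hπ₁ ρ hρ k1m1 (k2q Q)
  have e22 : ∀ x : Ext (ModuleCat.of A (LinearMap.ker π₀)) (ModuleCat.of A (LinearMap.ker π₀)) 1,
      x = 0 := ext_zero_ker_ker π₀ hπ₀ π₀ hπ₀ e11 (k1q P₀ 0 (by omega))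
  have e32 : ∀ x : Ext (ModuleCat.of A (LinearMap.ker π₁)) (ModuleCat.of A (LinearMap.ker π₀)) 1,
      x = 0 := ext_zero_ker_ker π₁ hπ₁ π₀ hπ₀ e21 (k2q P₀)
  exact core_false (R := R) π₀ π₁ π₂ hπ₁ hπ₂ hk₀ hk₁ hk₂ hX2 hK2
    (extend_of_ext_zero π₀ hπ₀ e11) (extend_of_ext_zero π₁ hπ₁ e21)
    (extend_of_ext_zero π₂ hπ₂ e31) (extend_of_ext_zero π₁ hπ₁ e22)
    (extend_of_ext_zero π₂ hπ₂ e32)

end Vale.Agent.H47.ARC
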