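import Mathlib

/-!
# Length counts for modules of homomorphisms over an algebra

`A` is an algebra over a commutative ring `R`; modules of `A`-linear maps are `R`-modules and we
compare their `R`-lengths.
-/

universe u v

namespace Vale.Agent.H47.ARC

section general

variable {R : Type v} [CommRing R] {H B₁ B₂ : Type*} [AddCommGroup H] [Module R H]
  [AddCommGroup B₁] [Module R B₁] [AddCommGroup B₂] [Module R B₂]

theorem length_eq_of_ker_eq (α : H →ₗ[R] B₁) (β : H →ₗ[R] B₂) (hα : Function.Surjective α)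
    (hβ : Function.Surjective β) (h : LinearMap.ker α = LinearMap.ker β) :
    Module.length R B₁ = Module.length R B₂ := by
  rw [← (α.quotKerEquivOfSurjective hα).length_eq, ← (β.quotKerEquivOfSurjective hβ).length_eq]
  exact (Submodule.quotEquivOfEq _ _ h).length_eq

theorem length_succ_le_of_ker_lt (α : H →ₗ[R] B₁) (β : H →ₗ[R] B₂) (hα : Function.Surjective α)
    (hβ : Function.Surjective β) (h : LinearMap.ker α ≤ LinearMap.ker β) (x : H) (hx : β x = 0)
    (hx' : α x ≠ 0) : Module.length R B₂ + 1 ≤ Module.length R B₁ := by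
  let γ : (H ⧸ LinearMap.ker α) →ₗ[R] B₂ := (LinearMap.ker α).liftQ β h
  have hγ : Function.Surjective γ := by
    intro b
    obtain ⟨y, rfl⟩ := hβ b
    exact ⟨Submodule.Quotient.mk y, rfl⟩
  have hlen := Module.length_eq_add_of_exact (LinearMap.ker γ).subtype γ
    (Submodule.subtype_injective _) hγ (LinearMap.exact_subtype_ker_map γ)
  rw [← (α.quotKerEquivOfSurjective hα).length_eq, hlen, add_comm]
  show 1 + Module.length R B₂ ≤ Module.length R (LinearMap.ker γ) + Module.length R B₂
  have hnt : Nontrivial (LinearMap.ker γ) := by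
    refine ⟨⟨⟨Submodule.Quotient.mk x, ?_⟩, 0, ?_⟩⟩
    · rw [LinearMap.mem_ker]
      exact hx
    · intro h0
      have h1 : (Submodule.Quotient.mk x : H ⧸ LinearMap.ker α) = 0 := congrArg Subtype.val h0
      rw [Submodule.Quotient.mk_eq_zero, LinearMap.mem_ker] at h1
      exact hx' h1
  have hpos : 1 ≤ Module.length R (LinearMap.ker γ) :=
    Order.one_le_iff_pos.mpr Module.length_pos
  exact add_le_add hpos le_rfl

end general

section hom

variable {R : Type v} [CommRing R] {A : Type u} [Ring A] [Algebra R A]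
variable {K N S : Type u} [AddCommGroup K] [Module A K] [AddCommGroup N] [Module A N]
  [Module R N] [IsScalarTower R A N] [AddCommGroup S] [Module A S] [Module R S]
  [IsScalarTower R A S]

/-- Modules of homomorphisms between finitely generated modules over an Artin algebra have
finite length over the base ring. -/
theorem hom_length_ne_top [IsArtinianRing R] [Module.Finite A K] [Module.Finite R N] :
    Module.length R (K →ₗ[A] N) ≠ ⊤ := by
  obtain ⟨n, f, hf⟩ := Module.Finite.exists_fin' A K
  let ev : (K →ₗ[A] N) →ₗ[R] (Fin n → N) :=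
    { toFun := fun g i => g (f (Pi.single i 1))
      map_add' := fun g g' => by ext i; simp
      map_smul' := fun r g => by ext i; simp }
  have hinj : Function.Injective ev := by
    intro g g' h
    have h2 : g ∘ₗ f = g' ∘ₗ f := by
      apply LinearMap.pi_ext'
      intro i
      ext
      exact congrFun h i
    ext k
    obtain ⟨y, rfl⟩ := hf k
    exact LinearMap.congr_fun h2 y
  have hfin : Module.length R (Fin n → N) ≠ ⊤ := Module.length_ne_top
  exact ne_top_of_le_ne_top hfin (Module.length_le_of_injective ev hinj)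

/-- Homomorphisms into a finite power. -/
theorem hom_pi_length (t : ℕ) (e : N ≃ₗ[A] (Fin t → S)) :
    Module.length R (K →ₗ[A] N) = t * Module.length R (K →ₗ[A] S) := by
  let φ : (K →ₗ[A] N) ≃ₗ[R] (Fin t → (K →ₗ[A] S)) :=
    { toFun := fun g i => (LinearMap.proj i) ∘ₗ e.toLinearMap ∘ₗ g
      invFun := fun h => e.symm.toLinearMap ∘ₗ LinearMap.pi h
      left_inv := fun g => by
        ext k
        simp only [LinearMap.comp_apply, LinearEquiv.coe_coe]
        rw [LinearEquiv.symm_apply_eq]
        ext i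
        simp
      right_inv := fun h => by
        ext i k
        simp
      map_add' := fun g g' => by
        ext i k
        simp
      map_smul' := fun r g => by
        ext i k
        have h1 : e (r • g k) = r • e (g k) := LinearMap.map_smul_of_tower e.toLinearMap r (g k)
        show e (r • g k) i = r • e (g k) i
        rw [h1]
        rfl }
  rw [φ.length_eq, Module.length_pi]
  simp

end hom

section lemmaC

variable {R : Type v} [CommRing R] {A : Type u} [Ring A] [Algebra R A]
variable {P K X Y : Type u} [AddCommGroup P] [Module A P] [AddCommGroup K] [Module A K]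
  [AddCommGroup X] [Module A X] [Module R X] [IsScalarTower R A X]
  [AddCommGroup Y] [Module A Y]
variable (π : P →ₗ[A] K) (hπ : Function.Surjective π) (U : Submodule A X)

/-- The maps `P → X` sending `ker π` into `U`, as an `R`-submodule. -/
def HSub : Submodule R (P →ₗ[A] X) where
  carrier := {h | ∀ x ∈ LinearMap.ker π, h x ∈ U}
  add_mem' := fun {h h'} hh hh' x hx => by
    rw [LinearMap.add_apply]
    exact U.add_mem (hh x hx) (hh' x hx)
  zero_mem' := fun x _ => by
    rw [LinearMap.zero_apply]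
    exact U.zero_mem
  smul_mem' := fun r h hh x hx => by
    rw [LinearMap.smul_apply]
    exact U.smul_of_tower_mem r (hh x hx)

/-- Descent of a map along a surjection. -/
noncomputable def desc (g : P →ₗ[A] Y) (hg : LinearMap.ker π ≤ LinearMap.ker g) : K →ₗ[A] Y :=
  ((LinearMap.ker π).liftQ g hg) ∘ₗ (π.quotKerEquivOfSurjective hπ).symm.toLinearMap

theorem desc_apply (g : P →ₗ[A] Y) (hg : LinearMap.ker π ≤ LinearMap.ker g) (p : P) :
    desc π hπ g hg (π p) = g p := by
  unfold desc
  have h1 : (π.quotKerEquivOfSurjective hπ).symm (π p) = Submodule.Quotient.mk p := by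
    rw [LinearEquiv.symm_apply_eq]
    rfl
  rw [LinearMap.comp_apply, LinearEquiv.coe_coe, h1]
  rfl

theorem mkQ_comp_mem_ker (h : HSub (R := R) π U) :
    LinearMap.ker π ≤ LinearMap.ker (U.mkQ ∘ₗ h.1) := by
  intro x hx
  rw [LinearMap.mem_ker, LinearMap.comp_apply, Submodule.mkQ_apply,
    Submodule.Quotient.mk_eq_zero]
  exact h.2 x hx

/-- The induced map `K → X ⧸ U`. -/
noncomputable def alphaMap : HSub (R := R) π U →ₗ[R] (K →ₗ[A] X ⧸ U) where
  toFun h := desc π hπ (U.mkQ ∘ₗ h.1) (mkQ_comp_mem_ker π U h)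
  map_add' h h' := by
    ext k
    obtain ⟨p, rfl⟩ := hπ k
    rw [LinearMap.add_apply, desc_apply, desc_apply, desc_apply]
    simp
  map_smul' r h := by
    ext k
    obtain ⟨p, rfl⟩ := hπ k
    rw [LinearMap.smul_apply, desc_apply, desc_apply]
    simp

theorem alphaMap_apply (h : HSub (R := R) π U) (p : P) :
    alphaMap π hπ U h (π p) = U.mkQ (h.1 p) := by
  show desc π hπ (U.mkQ ∘ₗ h.1) _ (π p) = _
  rw [desc_apply]
  rfl

/-- The restricted map `ker π → U`. -/
def betaMap : HSub (R := R) π U →ₗ[R] (LinearMap.ker π →ₗ[A] U) where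
  toFun h := LinearMap.codRestrict U (h.1 ∘ₗ (LinearMap.ker π).subtype) (fun x => h.2 x x.2)
  map_add' h h' := by
    ext x
    rfl
  map_smul' r h := by
    ext x
    rfl

theorem betaMap_apply (h : HSub (R := R) π U) (x : LinearMap.ker π) :
    ((betaMap π U h x : U) : X) = h.1 x := rfl

include hπ in
theorem alphaMap_surjective [Module.Projective A P] :
    Function.Surjective (alphaMap (R := R) π hπ U) := by
  intro g
  obtain ⟨h, hh⟩ := Module.projective_lifting_property U.mkQ (g ∘ₗ π) (Submodule.mkQ_surjective U)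
  have hmem : h ∈ HSub (R := R) π U := by
    intro x hx
    have h1 := LinearMap.congr_fun hh x
    rw [LinearMap.comp_apply, LinearMap.comp_apply, LinearMap.mem_ker.mp hx, map_zero,
      Submodule.mkQ_apply, Submodule.Quotient.mk_eq_zero] at h1
    exact h1
  refine ⟨⟨h, hmem⟩, ?_⟩
  ext k
  obtain ⟨p, rfl⟩ := hπ k
  rw [alphaMap_apply]
  exact LinearMap.congr_fun hh p

theorem betaMap_surjective
    (hii : ∀ f : LinearMap.ker π →ₗ[A] X, ∃ h : P →ₗ[A] X, ∀ x : LinearMap.ker π, h x = f x) :
    Function.Surjective (betaMap (R := R) π U) := by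
  intro f
  obtain ⟨h, hh⟩ := hii (U.subtype ∘ₗ f)
  have hmem : h ∈ HSub (R := R) π U := by
    intro x hx
    have := hh ⟨x, hx⟩
    rw [this]
    exact (f ⟨x, hx⟩).2
  refine ⟨⟨h, hmem⟩, ?_⟩
  ext x
  rw [betaMap_apply]
  exact hh x

include hπ in
theorem ker_alpha_le_ker_beta
    (hK : LinearMap.ker π ≤ (Ring.jacobson A • ⊤ : Submodule A P))
    (hJU : ∀ a ∈ Ring.jacobson A, ∀ u ∈ U, a • u = 0) :
    LinearMap.ker (alphaMap (R := R) π hπ U) ≤ LinearMap.ker (betaMap (R := R) π U) := by
  intro h hh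
  rw [LinearMap.mem_ker] at hh ⊢
  have hU : ∀ p : P, h.1 p ∈ U := by
    intro p
    have h1 := alphaMap_apply π hπ U h p
    rw [hh, LinearMap.zero_apply] at h1
    rw [← Submodule.Quotient.mk_eq_zero U]
    exact h1.symm
  ext x
  rw [betaMap_apply]
  have hx : (x : P) ∈ (Ring.jacobson A • ⊤ : Submodule A P) := hK x.2
  have : h.1 (x : P) = 0 := by
    refine Submodule.smul_induction_on hx (fun r hr n _ => ?_) (fun y z hy hz => ?_)
    · rw [map_smul]
      exact hJU r hr _ (hU n)
    · rw [map_add, hy, hz, add_zero]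
  rw [this]
  rfl

include hπ in
/-- Equality of lengths: the analogue of `Ext^n(-, X/U) ≅ Ext^(n+1)(-, U)`. -/
theorem lemmaC_eq [Module.Projective A P]
    (hK : LinearMap.ker π ≤ (Ring.jacobson A • ⊤ : Submodule A P))
    (hJU : ∀ a ∈ Ring.jacobson A, ∀ u ∈ U, a • u = 0)
    (hi : ∀ (f : K →ₗ[A] X) (k : K), f k ∈ U)
    (hii : ∀ f : LinearMap.ker π →ₗ[A] X, ∃ h : P →ₗ[A] X, ∀ x : LinearMap.ker π, h x = f x) :
    Module.length R (K →ₗ[A] X ⧸ U) = Module.length R (LinearMap.ker π →ₗ[A] U) := by
  refine length_eq_of_ker_eq (alphaMap (R := R) π hπ U) (betaMap (R := R) π U)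
    (alphaMap_surjective π hπ U) (betaMap_surjective π U hii) ?_
  apply le_antisymm (ker_alpha_le_ker_beta π hπ U hK hJU)
  intro h hh
  rw [LinearMap.mem_ker] at hh ⊢
  have hker : LinearMap.ker π ≤ LinearMap.ker h.1 := by
    intro x hx
    have h1 := betaMap_apply π U h ⟨x, hx⟩
    rw [hh] at h1
    rw [LinearMap.mem_ker]
    exact h1.symm
  ext k
  obtain ⟨p, rfl⟩ := hπ k
  rw [alphaMap_apply, LinearMap.zero_apply, Submodule.mkQ_apply, Submodule.Quotient.mk_eq_zero]
  have h2 := hi (desc π hπ h.1 hker) (π p)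
  rw [desc_apply] at h2
  exact h2

include hπ in
/-- Strict inequality of lengths when some map `K → X` does not land in `U`. -/
theorem lemmaC_lt [Module.Projective A P]
    (hK : LinearMap.ker π ≤ (Ring.jacobson A • ⊤ : Submodule A P))
    (hJU : ∀ a ∈ Ring.jacobson A, ∀ u ∈ U, a • u = 0)
    (hii : ∀ f : LinearMap.ker π →ₗ[A] X, ∃ h : P →ₗ[A] X, ∀ x : LinearMap.ker π, h x = f x)
    (f₀ : K →ₗ[A] X) (k₀ : K) (hk₀ : f₀ k₀ ∉ U) :
    Module.length R (LinearMap.ker π →ₗ[A] U) + 1 ≤ Module.length R (K →ₗ[A] X ⧸ U) := by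
  have hmem : f₀ ∘ₗ π ∈ HSub (R := R) π U := by
    intro x hx
    rw [LinearMap.comp_apply, LinearMap.mem_ker.mp hx, map_zero]
    exact U.zero_mem
  refine length_succ_le_of_ker_lt (alphaMap (R := R) π hπ U) (betaMap (R := R) π U)
    (alphaMap_surjective π hπ U) (betaMap_surjective π U hii)
    (ker_alpha_le_ker_beta π hπ U hK hJU) ⟨f₀ ∘ₗ π, hmem⟩ ?_ ?_
  · ext x
    rw [betaMap_apply]
    show f₀ (π (x : P)) = _
    rw [LinearMap.mem_ker.mp x.2, map_zero]
    rfl
  · intro h0
    obtain ⟨p, rfl⟩ := hπ k₀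
    have h1 := alphaMap_apply π hπ U ⟨f₀ ∘ₗ π, hmem⟩ p
    rw [h0, LinearMap.zero_apply] at h1
    apply hk₀
    rw [← Submodule.Quotient.mk_eq_zero U]
    exact h1.symm

end lemmaC

end Vale.Agent.H47.ARC
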