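import Vale.Agent.H47.ARC.Local
import Vale.Agent.H47.ARC.Count

/-!
# The counting argument

`A` is a local Artin algebra over `R`.  There is no module `X` such that `X` and its first syzygy
are nonzero of Loewy length at most two and the relevant extension groups vanish.  The groups
`Ext^n(X, Y)` do not appear here: their vanishing is used in the form: every map from the syzygy
extends to the projective cover.
-/

universe u v

namespace Vale.Agent.H47.ARC

open Vale.Agent.H47.Findim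

section aux

variable {A : Type u} [Ring A]

theorem killed_of_sq {X : Type u} [AddCommGroup X] [Module A X]
    (hX2 : ∀ a ∈ Ring.jacobson A, ∀ b ∈ Ring.jacobson A, ∀ x : X, a • b • x = 0) :
    ∀ a ∈ Ring.jacobson A, ∀ u ∈ (Ring.jacobson A • ⊤ : Submodule A X), a • u = 0 := by
  intro a ha u hu
  refine Submodule.smul_induction_on hu (fun b hb x _ => hX2 a ha b hb x) (fun y z hy hz => ?_)
  rw [smul_add, hy, hz, add_zero]

theorem exists_not_mem_of_sq {X : Type u} [AddCommGroup X] [Module A X] [Nontrivial X]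
    (hX2 : ∀ a ∈ Ring.jacobson A, ∀ b ∈ Ring.jacobson A, ∀ x : X, a • b • x = 0) :
    ∃ x : X, x ∉ (Ring.jacobson A • ⊤ : Submodule A X) := by
  by_contra hcon
  have hcon : ∀ x : X, x ∈ (Ring.jacobson A • ⊤ : Submodule A X) := by
    intro x
    by_contra hx
    exact hcon ⟨x, hx⟩
  have hk := killed_of_sq hX2
  have hz : ∀ x : X, x = 0 := by
    intro x
    have hx := hcon x
    refine Submodule.smul_induction_on hx (fun b hb y _ => hk b hb y (hcon y))
      (fun y z hy hz => ?_)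
    rw [hy, hz, add_zero]
  obtain ⟨x, y, hxy⟩ := exists_pair_ne X
  exact hxy ((hz x).trans (hz y).symm)

theorem quot_killed {X : Type u} [AddCommGroup X] [Module A X] :
    ∀ a ∈ Ring.jacobson A, ∀ v : X ⧸ (Ring.jacobson A • ⊤ : Submodule A X), a • v = 0 := by
  intro a ha v
  obtain ⟨x, rfl⟩ := Submodule.Quotient.mk_surjective _ v
  rw [← Submodule.Quotient.mk_smul, Submodule.Quotient.mk_eq_zero]
  exact Submodule.smul_mem_smul ha trivial

theorem sub_killed {X : Type u} [AddCommGroup X] [Module A X]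
    (hk : ∀ a ∈ Ring.jacobson A, ∀ u ∈ (Ring.jacobson A • ⊤ : Submodule A X), a • u = 0) :
    ∀ a ∈ Ring.jacobson A, ∀ u : (Ring.jacobson A • ⊤ : Submodule A X), a • u = 0 := by
  intro a ha u
  apply Subtype.ext
  exact hk a ha u.1 u.2

theorem arith {t b t' b' m₁ m₂ m₃ : ℕ} (ht : 0 < t) (h1 : t * m₁ = b * m₂)
    (h2 : t * m₂ = b * m₃) (h3 : t' * m₂ = b' * m₃) (h4 : b' * m₂ + 1 ≤ t' * m₁) : False := by
  have hm₂ : 0 < m₂ := by
    rcases Nat.eq_zero_or_pos m₂ with h | h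
    · subst h
      have : m₁ = 0 := by
        rcases Nat.eq_zero_or_pos m₁ with h' | h'
        · exact h'
        · have := Nat.mul_pos ht h'
          omega
      subst this
      omega
    · exact h
  have key : (b' * m₂ + 1) * (t * m₂) ≤ (t' * m₁) * (t * m₂) := Nat.mul_le_mul_right _ h4
  have e1 : (t' * m₁) * (t * m₂) = t' * m₂ * (b * m₂) := by
    calc (t' * m₁) * (t * m₂) = t' * m₂ * (t * m₁) := by ring
      _ = t' * m₂ * (b * m₂) := by rw [h1]
  have e2 : b' * m₂ * (t * m₂) = t' * m₂ * (b * m₂) := by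
    calc b' * m₂ * (t * m₂) = b' * m₂ * (b * m₃) := by rw [h2]
      _ = b * m₂ * (b' * m₃) := by ring
      _ = b * m₂ * (t' * m₂) := by rw [h3]
      _ = t' * m₂ * (b * m₂) := by ring
  have e3 : (b' * m₂ + 1) * (t * m₂) = b' * m₂ * (t * m₂) + t * m₂ := by ring
  have hpos : 0 < t * m₂ := Nat.mul_pos ht hm₂
  omega

end aux

section core

variable {R : Type v} [CommRing R] [IsArtinianRing R] {A : Type u} [Ring A] [Algebra R A]
  [Module.Finite R A] [IsLocalRing A]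

/-- The core contradiction. -/
theorem core_false
    {X P₀ P₁ P₂ : Type u}
    [AddCommGroup X] [Module A X] [Module R X] [IsScalarTower R A X] [Module.Finite A X]
    [AddCommGroup P₀] [Module A P₀] [Module R P₀] [IsScalarTower R A P₀] [Module.Finite A P₀]
    [AddCommGroup P₁] [Module A P₁] [Module.Projective A P₁] [Module.Finite A P₁]
    [AddCommGroup P₂] [Module A P₂] [Module.Projective A P₂] [Module.Finite A P₂]
    (π₀ : P₀ →ₗ[A] X) (π₁ : P₁ →ₗ[A] LinearMap.ker π₀) (π₂ : P₂ →ₗ[A] LinearMap.ker π₁)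
    (hπ₁ : Function.Surjective π₁) (hπ₂ : Function.Surjective π₂)
    (hk₀ : LinearMap.ker π₀ ≤ (Ring.jacobson A • ⊤ : Submodule A P₀))
    (hk₁ : LinearMap.ker π₁ ≤ (Ring.jacobson A • ⊤ : Submodule A P₁))
    (hk₂ : LinearMap.ker π₂ ≤ (Ring.jacobson A • ⊤ : Submodule A P₂))
    (hX2 : ∀ a ∈ Ring.jacobson A, ∀ b ∈ Ring.jacobson A, ∀ x : X, a • b • x = 0)
    (hK2 : ∀ a ∈ Ring.jacobson A, ∀ b ∈ Ring.jacobson A, ∀ x : LinearMap.ker π₀, a • b • x = 0)
    [Nontrivial X] [Nontrivial (LinearMap.ker π₀)]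
    (e1 : ∀ f : LinearMap.ker π₀ →ₗ[A] X, ∃ h : P₀ →ₗ[A] X, ∀ x : LinearMap.ker π₀, h x = f x)
    (e2 : ∀ f : LinearMap.ker π₁ →ₗ[A] X, ∃ h : P₁ →ₗ[A] X, ∀ x : LinearMap.ker π₁, h x = f x)
    (e3 : ∀ f : LinearMap.ker π₂ →ₗ[A] X, ∃ h : P₂ →ₗ[A] X, ∀ x : LinearMap.ker π₂, h x = f x)
    (e4 : ∀ f : LinearMap.ker π₁ →ₗ[A] LinearMap.ker π₀,
      ∃ h : P₁ →ₗ[A] LinearMap.ker π₀, ∀ x : LinearMap.ker π₁, h x = f x)
    (e5 : ∀ f : LinearMap.ker π₂ →ₗ[A] LinearMap.ker π₀,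
      ∃ h : P₂ →ₗ[A] LinearMap.ker π₀, ∀ x : LinearMap.ker π₂, h x = f x) :
    False := by
  have hArt : IsArtinianRing A := IsArtinianRing.of_finite R A
  have hJU := killed_of_sq hX2
  have hJU' := killed_of_sq hK2
  -- maps from syzygies land in the radical
  have hi1 : ∀ (f : LinearMap.ker π₀ →ₗ[A] X) (k : LinearMap.ker π₀),
      f k ∈ (Ring.jacobson A • ⊤ : Submodule A X) := by
    intro f k
    obtain ⟨h, hh⟩ := e1 f
    rw [← hh k]
    exact smul_top_map_mem _ h (hk₀ k.2)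
  have hi2 : ∀ (f : LinearMap.ker π₁ →ₗ[A] X) (k : LinearMap.ker π₁),
      f k ∈ (Ring.jacobson A • ⊤ : Submodule A X) := by
    intro f k
    obtain ⟨h, hh⟩ := e2 f
    rw [← hh k]
    exact smul_top_map_mem _ h (hk₁ k.2)
  have hi3 : ∀ (f : LinearMap.ker π₁ →ₗ[A] LinearMap.ker π₀) (k : LinearMap.ker π₁),
      f k ∈ (Ring.jacobson A • ⊤ : Submodule A (LinearMap.ker π₀)) := by
    intro f k
    obtain ⟨h, hh⟩ := e4 f
    rw [← hh k]
    exact smul_top_map_mem _ h (hk₁ k.2)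
  -- the four length relations
  have r1 := lemmaC_eq (R := R) π₁ hπ₁ (Ring.jacobson A • ⊤ : Submodule A X) hk₁ hJU hi1 e2
  have r2 := lemmaC_eq (R := R) π₂ hπ₂ (Ring.jacobson A • ⊤ : Submodule A X) hk₂ hJU hi2 e3
  have r3 := lemmaC_eq (R := R) π₂ hπ₂ (Ring.jacobson A • ⊤ : Submodule A (LinearMap.ker π₀))
    hk₂ hJU' hi3 e5
  obtain ⟨k₀, hk₀'⟩ := exists_not_mem_of_sq hK2
  have r4 := lemmaC_lt (R := R) π₁ hπ₁ (Ring.jacobson A • ⊤ : Submodule A (LinearMap.ker π₀))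
    hk₁ hJU' e4 LinearMap.id k₀ hk₀'
  -- the semisimple pieces are powers of the simple module
  obtain ⟨t, ⟨eV⟩⟩ := killed_equiv_pi (X ⧸ (Ring.jacobson A • ⊤ : Submodule A X)) quot_killed
  obtain ⟨b, ⟨eU⟩⟩ := killed_equiv_pi (Ring.jacobson A • ⊤ : Submodule A X) (sub_killed hJU)
  obtain ⟨t', ⟨eV'⟩⟩ := killed_equiv_pi
    (LinearMap.ker π₀ ⧸ (Ring.jacobson A • ⊤ : Submodule A (LinearMap.ker π₀))) quot_killed
  obtain ⟨b', ⟨eU'⟩⟩ := killed_equiv_pi
    (Ring.jacobson A • ⊤ : Submodule A (LinearMap.ker π₀)) (sub_killed hJU')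
  rw [hom_pi_length (R := R) t eV, hom_pi_length (R := R) b eU] at r1
  rw [hom_pi_length (R := R) t eV, hom_pi_length (R := R) b eU] at r2
  rw [hom_pi_length (R := R) t' eV', hom_pi_length (R := R) b' eU'] at r3
  rw [hom_pi_length (R := R) t' eV', hom_pi_length (R := R) b' eU'] at r4
  have hf₁ : Module.length R (LinearMap.ker π₀ →ₗ[A] A ⧸ Ring.jacobson A) ≠ ⊤ :=
    hom_length_ne_top
  have hf₂ : Module.length R (LinearMap.ker π₁ →ₗ[A] A ⧸ Ring.jacobson A) ≠ ⊤ :=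
    hom_length_ne_top
  have hf₃ : Module.length R (LinearMap.ker π₂ →ₗ[A] A ⧸ Ring.jacobson A) ≠ ⊤ :=
    hom_length_ne_top
  obtain ⟨m₁, hm₁⟩ := ENat.ne_top_iff_exists.mp hf₁
  obtain ⟨m₂, hm₂⟩ := ENat.ne_top_iff_exists.mp hf₂
  obtain ⟨m₃, hm₃⟩ := ENat.ne_top_iff_exists.mp hf₃
  rw [← hm₁, ← hm₂] at r1
  rw [← hm₂, ← hm₃] at r2
  rw [← hm₂, ← hm₃] at r3
  rw [← hm₁, ← hm₂] at r4
  have ht : 0 < t := by
    rcases Nat.eq_zero_or_pos t with h | h
    · subst h
      obtain ⟨x, hx⟩ := exists_not_mem_of_sq hX2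
      exfalso
      apply hx
      rw [← Submodule.Quotient.mk_eq_zero]
      apply eV.injective
      exact Subsingleton.elim _ _
    · exact h
  exact arith ht (by exact_mod_cast r1) (by exact_mod_cast r2) (by exact_mod_cast r3)
    (by exact_mod_cast r4)

end core

end Vale.Agent.H47.ARC
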