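import Vale.Agent.H47.ARC.General

/-!
# The Auslander-Reiten conjecture for Artin algebras with radical cube zero

`A` is an Artin algebra with `(rad A)^3 = 0` and `M` a finitely generated module with
`Ext^i(M, M) = 0 = Ext^i(M, A)` for all `i ≥ 1`.  Then `M` is projective.

Let `X_m` be the `m`-th syzygy of `M` in a minimal projective resolution.  For `i ≥ 1` the module
`X_i` has Loewy length at most two; let `U_i` be its radical and `V_i` its top.  The vanishing of
`Ext^1(X_j, X_i)` for `j ≥ i` gives `length Hom(X_m, V_i) = length Hom(X_(m+1), U_i)` for `m > i`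
and `length Hom(X_(i+1), U_i) < length Hom(X_i, V_i)` (lengths over the base ring).  With the
vectors `μ_m = (length Hom(X_m, S_k))_k` (`S_k` the simple modules) both sides are linear in
`p_m = (μ_m, μ_(m+1))`: there is a linear functional `Ψ_i` with `Ψ_i(p_m) = 0` for `m > i` and
`Ψ_i(p_i) > 0`.  But the vectors `p_m` live in a finite-dimensional space, so some `p_i` lies in
the span of the later ones: a contradiction.
-/

universe u v

namespace Vale.Agent.H47.ARC

open CategoryTheory Abelian Vale.Agent.H47.Findim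

section syz

variable {A : Type u} [Ring A] [IsArtinianRing A]

/-- Bundled finitely generated modules. -/
abbrev FinMod (A : Type u) [Ring A] : Type (u + 1) := {X : ModuleCat.{u} A // Module.Finite A X}

/-- A projective cover of `X`. -/
noncomputable def cov (X : FinMod A) : ModuleCat.{u} A :=
  Classical.choose (@exists_min_pres A _ _ X.1 _ _ X.2)

/-- The covering map. -/
noncomputable def covMap (X : FinMod A) : cov X →ₗ[A] X.1 :=
  Classical.choose (Classical.choose_spec (@exists_min_pres A _ _ X.1 _ _ X.2))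

theorem cov_spec (X : FinMod A) : Module.Projective A (cov X) ∧ Module.Finite A (cov X) ∧
    Function.Surjective (covMap X) ∧
    LinearMap.ker (covMap X) ≤ (Ring.jacobson A • ⊤ : Submodule A (cov X)) :=
  Classical.choose_spec (Classical.choose_spec (@exists_min_pres A _ _ X.1 _ _ X.2))

theorem ker_finite (X : FinMod A) : Module.Finite A (LinearMap.ker (covMap X)) := by
  have := (cov_spec X).2.1
  infer_instance

/-- The first syzygy. -/
noncomputable def next (X : FinMod A) : FinMod A :=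
  ⟨ModuleCat.of A (LinearMap.ker (covMap X)), ker_finite X⟩

/-- The sequence of syzygies. -/
noncomputable def syz (M : FinMod A) : ℕ → FinMod A
  | 0 => M
  | n + 1 => next (syz M n)

variable {P N Y P' N' : Type u} [AddCommGroup P] [Module A P] [AddCommGroup N] [Module A N]
  [AddCommGroup Y] [Module A Y] [AddCommGroup P'] [Module A P'] [AddCommGroup N'] [Module A N']

omit [IsArtinianRing A] in
/-- The covariant step in higher degrees. -/
theorem ext_zero_ker_high (π' : P' →ₗ[A] N') (hπ' : Function.Surjective π')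
    (Z : ModuleCat.{u} A) (n : ℕ)
    (h1 : ∀ x : Ext Z (ModuleCat.of A N') (n + 1), x = 0)
    (h2 : ∀ x : Ext Z (ModuleCat.of A P') (n + 2), x = 0) :
    ∀ x : Ext Z (ModuleCat.of A (LinearMap.ker π')) (n + 2), x = 0 := by
  intro x
  have hS' := sesOf_shortExact π' hπ'
  obtain ⟨x₃, hx₃⟩ := Ext.covariant_sequence_exact₁ Z hS' x (h2 _) (rfl : (n + 1) + 1 = n + 2)
  rw [← hx₃, h1 x₃, Ext.zero_comp]

omit [IsArtinianRing A] in
/-- If `Ext^1(N, ker π) = 0` for a surjection `π` from a projective module onto `N`, then `N` is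
projective. -/
theorem proj_of_ext_zero_ker [Module.Projective A P] (π : P →ₗ[A] N)
    (hπ : Function.Surjective π)
    (hz : ∀ x : Ext (ModuleCat.of A N) (ModuleCat.of A (LinearMap.ker π)) 1, x = 0) :
    Module.Projective A N := by
  obtain ⟨h, hh⟩ := extend_of_ext_zero π hπ hz LinearMap.id
  let s : N →ₗ[A] P := desc π hπ (LinearMap.id - (LinearMap.ker π).subtype ∘ₗ h) (by
    intro x hx
    have h5 := hh ⟨x, hx⟩
    rw [LinearMap.mem_ker, LinearMap.sub_apply, LinearMap.id_apply, LinearMap.comp_apply, h5]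
    simp)
  refine Module.Projective.of_split s π ?_
  ext m
  obtain ⟨q, rfl⟩ := hπ m
  rw [LinearMap.comp_apply, desc_apply, LinearMap.id_apply, LinearMap.sub_apply,
    LinearMap.id_apply, LinearMap.comp_apply, map_sub]
  have h6 : π ((LinearMap.ker π).subtype (h q)) = 0 := (h q).2
  rw [h6, sub_zero]

/-- Dimension shifting along the syzygy sequence. -/
theorem syz_ext_base (M : FinMod A) (Y : Type u) [AddCommGroup Y] [Module A Y]
    (h : ∀ n : ℕ, ∀ x : Ext M.1 (ModuleCat.of A Y) (n + 1), x = 0) :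
    ∀ (j n : ℕ), ∀ x : Ext (syz M j).1 (ModuleCat.of A Y) (n + 1), x = 0 := by
  intro j
  induction j with
  | zero =>
    intro n
    exact h n
  | succ j ih =>
    intro n
    have := (cov_spec (syz M j)).1
    exact ext_zero_ker (covMap (syz M j)) (cov_spec (syz M j)).2.2.1 n (ih (n + 1))

theorem syz_ext_proj (M : FinMod A)
    (hMA : ∀ n : ℕ, ∀ x : Ext M.1 (ModuleCat.of A A) (n + 1), x = 0)
    (T : Type u) [AddCommGroup T] [Module A T] [Module.Projective A T] [Module.Finite A T] :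
    ∀ (j n : ℕ), ∀ x : Ext (syz M j).1 (ModuleCat.of A T) (n + 1), x = 0 :=
  syz_ext_base M T (fun n => ext_zero_proj M.1 (n + 1) (hMA n) T)

/-- All the groups `Ext^n(X_j, X_i)` with `j ≥ i` and `n ≥ 1` vanish. -/
theorem syz_ext (M : FinMod A)
    (hMM : ∀ n : ℕ, ∀ x : Ext M.1 M.1 (n + 1), x = 0)
    (hMA : ∀ n : ℕ, ∀ x : Ext M.1 (ModuleCat.of A A) (n + 1), x = 0) :
    ∀ (i j : ℕ), i ≤ j → ∀ n : ℕ, ∀ x : Ext (syz M j).1 (syz M i).1 (n + 1), x = 0 := by
  intro i
  induction i with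
  | zero =>
    intro j _ n
    exact syz_ext_base M M.1 hMM j n
  | succ i ih =>
    intro j hij n
    obtain ⟨j', rfl⟩ : ∃ j', j = j' + 1 := ⟨j - 1, by omega⟩
    have hproj := (cov_spec (syz M i)).1
    have hfin := (cov_spec (syz M i)).2.1
    have hproj' := (cov_spec (syz M j')).1
    cases n with
    | zero =>
      exact ext_zero_ker_ker (covMap (syz M j')) (cov_spec (syz M j')).2.2.1
        (covMap (syz M i)) (cov_spec (syz M i)).2.2.1 (ih j' (by omega) 0)
        (syz_ext_proj M hMA (cov (syz M i)) (j' + 1) 0)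
    | succ n =>
      exact ext_zero_ker_high (covMap (syz M i)) (cov_spec (syz M i)).2.2.1 (syz M (j' + 1)).1 n
        (ih (j' + 1) (by omega) n) (syz_ext_proj M hMA (cov (syz M i)) (j' + 1) (n + 1))

/-- If some syzygy is projective then so is the module. -/
theorem proj_of_syz_proj (M : FinMod A)
    (hMA : ∀ n : ℕ, ∀ x : Ext M.1 (ModuleCat.of A A) (n + 1), x = 0) :
    ∀ i : ℕ, Module.Projective A (syz M i).1 → Module.Projective A M.1 := by
  intro i
  induction i with
  | zero => exact id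
  | succ i ih =>
    intro hp
    apply ih
    have hp' : Module.Projective A (LinearMap.ker (covMap (syz M i))) := hp
    have hfin := ker_finite (syz M i)
    have hproj := (cov_spec (syz M i)).1
    have hz := syz_ext_proj M hMA (LinearMap.ker (covMap (syz M i))) i 0
    exact proj_of_ext_zero_ker (covMap (syz M i)) (cov_spec (syz M i)).2.2.1 hz

end syz

section main

variable {A : Type u} [Ring A]

/-- The Auslander-Reiten conjecture for Artin algebras with radical cube zero. -/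
theorem arc_cube {R : Type v} [CommRing R] [IsArtinianRing R] [Algebra R A]
    [Module.Finite R A] (hJ : Ring.jacobson A ^ 3 = ⊥)
    (M : ModuleCat.{u} A) [hfin : Module.Finite A M]
    (hMM : ∀ i : ℕ, 1 ≤ i → ∀ x : Ext M M i, x = 0)
    (hMA : ∀ i : ℕ, 1 ≤ i → ∀ x : Ext M (ModuleCat.of A A) i, x = 0) :
    Module.Projective A M := by
  classical
  by_contra hnp
  have hArt : IsArtinianRing A := IsArtinianRing.of_finite R A
  let M₀ : FinMod A := ⟨M, hfin⟩
  have hMM' : ∀ n : ℕ, ∀ x : Ext M₀.1 M₀.1 (n + 1), x = 0 := fun n => hMM (n + 1) (by omega)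
  have hMA' : ∀ n : ℕ, ∀ x : Ext M₀.1 (ModuleCat.of A A) (n + 1), x = 0 :=
    fun n => hMA (n + 1) (by omega)
  have hD := syz_ext M₀ hMM' hMA'
  have hNT : ∀ i, Nontrivial (syz M₀ i).1 := by
    intro i
    by_contra hsub
    rw [not_nontrivial_iff_subsingleton] at hsub
    apply hnp
    apply proj_of_syz_proj M₀ hMA' i
    infer_instance
  have hfinm : ∀ m, Module.Finite A (syz M₀ m).1 := fun m => (syz M₀ m).2
  obtain ⟨r, I, hI⟩ := simple_family (A := A)
  -- lengths of the modules of homomorphisms from the syzygies to the simple modules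
  have hfl : ∀ (m : ℕ) (k : Fin r),
      Module.length R ((syz M₀ m).1 →ₗ[A] (A ⧸ I k)) ≠ ⊤ := by
    intro m k
    have := hfinm m
    exact hom_length_ne_top
  let μ : ℕ → Fin r → ℚ := fun m k =>
    ((Module.length R ((syz M₀ m).1 →ₗ[A] (A ⧸ I k))).toNat : ℚ)
  let p : ℕ → (Fin r → ℚ) × (Fin r → ℚ) := fun m => (μ m, μ (m + 1))
  obtain ⟨N, hN1, hNmem⟩ := exists_mem_span_later p
  obtain ⟨N', rfl⟩ : ∃ N', N = N' + 1 := ⟨N - 1, by omega⟩
  -- the module `X = X_(N'+1)` and its radical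
  let _ : Module R (syz M₀ (N' + 1)).1 := Module.compHom _ (algebraMap R A)
  have hst : IsScalarTower R A (syz M₀ (N' + 1)).1 :=
    IsScalarTower.of_algebraMap_smul (fun _ _ => rfl)
  have hfX := hfinm (N' + 1)
  have hntX := hNT (N' + 1)
  have hX2 : ∀ a ∈ Ring.jacobson A, ∀ b ∈ Ring.jacobson A, ∀ x : (syz M₀ (N' + 1)).1,
      a • b • x = 0 := by
    intro a ha b hb x
    have h1 : ∀ y : LinearMap.ker (covMap (syz M₀ N')), a • b • y = 0 := by
      intro y
      apply Subtype.ext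
      exact cube_zero_smul hJ ha hb ((cov_spec (syz M₀ N')).2.2.2 y.2)
    exact h1 x
  have hJU := killed_of_sq hX2
  obtain ⟨k₀, hk₀⟩ := exists_not_mem_of_sq hX2
  -- the relations
  have hrel : ∀ m, N' + 2 ≤ m →
      Module.length R ((syz M₀ m).1 →ₗ[A]
        (syz M₀ (N' + 1)).1 ⧸ (Ring.jacobson A • ⊤ : Submodule A (syz M₀ (N' + 1)).1)) =
      Module.length R ((syz M₀ (m + 1)).1 →ₗ[A]
        (Ring.jacobson A • ⊤ : Submodule A (syz M₀ (N' + 1)).1)) := by
    intro m hm
    obtain ⟨m', rfl⟩ : ∃ m', m = m' + 1 := ⟨m - 1, by omega⟩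
    have hproj := (cov_spec (syz M₀ (m' + 1))).1
    have hi : ∀ (f : LinearMap.ker (covMap (syz M₀ m')) →ₗ[A] (syz M₀ (N' + 1)).1)
        (k : LinearMap.ker (covMap (syz M₀ m'))),
        f k ∈ (Ring.jacobson A • ⊤ : Submodule A (syz M₀ (N' + 1)).1) := by
      intro f k
      obtain ⟨h, hh⟩ := extend_of_ext_zero (covMap (syz M₀ m'))
        (cov_spec (syz M₀ m')).2.2.1 (hD (N' + 1) m' (by omega) 0) f
      have hk : (k : cov (syz M₀ m')) ∈ (Ring.jacobson A • ⊤ : Submodule A (cov (syz M₀ m'))) :=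
        (cov_spec (syz M₀ m')).2.2.2 k.2
      have h3 := smul_top_map_mem (Ring.jacobson A) h hk
      rw [hh k] at h3
      exact h3
    exact lemmaC_eq (R := R) (covMap (syz M₀ (m' + 1))) (cov_spec (syz M₀ (m' + 1))).2.2.1
      (Ring.jacobson A • ⊤ : Submodule A (syz M₀ (N' + 1)).1)
      (cov_spec (syz M₀ (m' + 1))).2.2.2 hJU hi
      (extend_of_ext_zero (covMap (syz M₀ (m' + 1))) (cov_spec (syz M₀ (m' + 1))).2.2.1
        (hD (N' + 1) (m' + 1) (by omega) 0))
  have hstrict : Module.length R ((syz M₀ (N' + 2)).1 →ₗ[A]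
        (Ring.jacobson A • ⊤ : Submodule A (syz M₀ (N' + 1)).1)) + 1 ≤
      Module.length R ((syz M₀ (N' + 1)).1 →ₗ[A]
        (syz M₀ (N' + 1)).1 ⧸ (Ring.jacobson A • ⊤ : Submodule A (syz M₀ (N' + 1)).1)) := by
    have hproj := (cov_spec (syz M₀ (N' + 1))).1
    exact lemmaC_lt (R := R) (covMap (syz M₀ (N' + 1))) (cov_spec (syz M₀ (N' + 1))).2.2.1
      (Ring.jacobson A • ⊤ : Submodule A (syz M₀ (N' + 1)).1)
      (cov_spec (syz M₀ (N' + 1))).2.2.2 hJU
      (extend_of_ext_zero (covMap (syz M₀ (N' + 1))) (cov_spec (syz M₀ (N' + 1))).2.2.1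
        (hD (N' + 1) (N' + 1) le_rfl 0)) LinearMap.id k₀ hk₀
  -- decompositions of the top and the radical of `X`
  obtain ⟨nV, σV, ⟨eV⟩⟩ := killed_decomp I hI
    ((syz M₀ (N' + 1)).1 ⧸ (Ring.jacobson A • ⊤ : Submodule A (syz M₀ (N' + 1)).1)) quot_killed
  obtain ⟨nU, σU, ⟨eU⟩⟩ := killed_decomp I hI
    (Ring.jacobson A • ⊤ : Submodule A (syz M₀ (N' + 1)).1) (sub_killed hJU)
  have hcast : ∀ (m : ℕ) (k : Fin r),
      Module.length R ((syz M₀ m).1 →ₗ[A] (A ⧸ I k)) =
        (((Module.length R ((syz M₀ m).1 →ₗ[A] (A ⧸ I k))).toNat : ℕ) : ℕ∞) :=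
    fun m k => (ENat.natCast_toNat (hfl m k)).symm
  have hV : ∀ m, Module.length R ((syz M₀ m).1 →ₗ[A]
        (syz M₀ (N' + 1)).1 ⧸ (Ring.jacobson A • ⊤ : Submodule A (syz M₀ (N' + 1)).1)) =
      ((∑ c, (Module.length R ((syz M₀ m).1 →ₗ[A] (A ⧸ I (σV c)))).toNat : ℕ) : ℕ∞) := by
    intro m
    rw [hom_pi_length' (R := R) I σV eV, Nat.cast_sum]
    exact Finset.sum_congr rfl (fun c _ => hcast m (σV c))
  have hU : ∀ m, Module.length R ((syz M₀ m).1 →ₗ[A]
        (Ring.jacobson A • ⊤ : Submodule A (syz M₀ (N' + 1)).1)) =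
      ((∑ c, (Module.length R ((syz M₀ m).1 →ₗ[A] (A ⧸ I (σU c)))).toNat : ℕ) : ℕ∞) := by
    intro m
    rw [hom_pi_length' (R := R) I σU eU, Nat.cast_sum]
    exact Finset.sum_congr rfl (fun c _ => hcast m (σU c))
  -- the linear functional
  let Ψ : ((Fin r → ℚ) × (Fin r → ℚ)) →ₗ[ℚ] ℚ :=
    (∑ c : Fin nV, LinearMap.proj (σV c)) ∘ₗ LinearMap.fst ℚ (Fin r → ℚ) (Fin r → ℚ) -
      (∑ c : Fin nU, LinearMap.proj (σU c)) ∘ₗ LinearMap.snd ℚ (Fin r → ℚ) (Fin r → ℚ)
  have hΨ : ∀ m, Ψ (p m) = (∑ c, μ m (σV c)) - ∑ c, μ (m + 1) (σU c) := by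
    intro m
    simp [Ψ, p]
  have hΨ0 : ∀ m, N' + 2 ≤ m → Ψ (p m) = 0 := by
    intro m hm
    have h1 := hrel m hm
    rw [hV m, hU (m + 1)] at h1
    have h2 : (∑ c, (Module.length R ((syz M₀ m).1 →ₗ[A] (A ⧸ I (σV c)))).toNat : ℕ) =
        ∑ c, (Module.length R ((syz M₀ (m + 1)).1 →ₗ[A] (A ⧸ I (σU c)))).toNat := by
      exact_mod_cast h1
    have h3 : (∑ c, μ m (σV c)) = ∑ c, μ (m + 1) (σU c) := by
      have := congrArg (fun z : ℕ => (z : ℚ)) h2
      simpa [μ] using this
    rw [hΨ, h3, sub_self]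
  have hker : Submodule.span ℚ (p '' {m | N' + 1 + 1 ≤ m}) ≤ LinearMap.ker Ψ := by
    rw [Submodule.span_le]
    rintro _ ⟨m, hm, rfl⟩
    exact LinearMap.mem_ker.mpr (hΨ0 m hm)
  have hzero : Ψ (p (N' + 1)) = 0 := LinearMap.mem_ker.mp (hker hNmem)
  have h1 := hstrict
  rw [hV (N' + 1), hU (N' + 2)] at h1
  have h2 : (∑ c, (Module.length R ((syz M₀ (N' + 2)).1 →ₗ[A] (A ⧸ I (σU c)))).toNat : ℕ) + 1 ≤
      ∑ c, (Module.length R ((syz M₀ (N' + 1)).1 →ₗ[A] (A ⧸ I (σV c)))).toNat := by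
    exact_mod_cast h1
  have h3 : (∑ c, μ (N' + 1 + 1) (σU c)) + 1 ≤ ∑ c, μ (N' + 1) (σV c) := by
    have := (Nat.cast_le (α := ℚ)).mpr h2
    simpa [μ] using this
  rw [hΨ] at hzero
  linarith

end main

end Vale.Agent.H47.ARC
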