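import Vale.Agent.H47.ARC.Bridge

/-!
# Radical cube zero, general (not necessarily local) Artin algebras: auxiliary facts

* a finite family of simple modules `A ⧸ I k` containing every simple module up to isomorphism,
  and the decomposition of finitely generated modules killed by the radical;
* lengths of modules of homomorphisms into such products;
* in a finite-dimensional space, some term of a sequence lies in the span of the later terms.
-/

universe u v

namespace Vale.Agent.H47.ARC

open Vale.Agent.H47.Findim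

section family

variable {A : Type u} [Ring A]

theorem quot_jac_killed :
    ∀ a ∈ Ring.jacobson A, ∀ x : A ⧸ Ring.jacobson A, a • x = 0 := by
  intro a ha x
  obtain ⟨b, rfl⟩ := Submodule.Quotient.mk_surjective _ x
  rw [← Submodule.Quotient.mk_smul, Submodule.Quotient.mk_eq_zero]
  exact Ideal.mul_mem_right b _ ha

/-- Finitely many left ideals `I k` such that every simple module is isomorphic to some
`A ⧸ I k`. -/
theorem simple_family [IsArtinianRing A] : ∃ (r : ℕ) (I : Fin r → Ideal A),
    ∀ (S : Type u) [AddCommGroup S] [Module A S] [IsSimpleModule A S],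
      ∃ k, Nonempty (S ≃ₗ[A] (A ⧸ I k)) := by
  classical
  have hss : IsSemisimpleModule A (A ⧸ Ring.jacobson A) :=
    semisimple_of_killed' _ quot_jac_killed
  obtain ⟨n, S, e, hS⟩ :=
    IsSemisimpleModule.exists_linearEquiv_fin_dfinsupp A (A ⧸ Ring.jacobson A)
  have hq : ∀ i, ∃ I : Ideal A, Nonempty (S i ≃ₗ[A] A ⧸ I) := fun i => by
    obtain ⟨I, _, ⟨e'⟩⟩ := isSimpleModule_iff_quot_maximal.mp (hS i)
    exact ⟨I, ⟨e'⟩⟩
  choose I hI using hq
  refine ⟨n, I, ?_⟩
  intro S' _ _ _
  have hnt : Nontrivial S' := IsSimpleModule.nontrivial A S'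
  obtain ⟨s, hs⟩ := exists_ne (0 : S')
  let f₀ : A →ₗ[A] S' := LinearMap.toSpanSingleton A S' s
  have hJ : Ring.jacobson A ≤ LinearMap.ker f₀ := by
    intro a ha
    have h1 := IsSemisimpleModule.jacobson_le_annihilator (R := A) (M := S') ha
    rw [LinearMap.mem_ker]
    exact Module.mem_annihilator.mp h1 s
  let f : (A ⧸ Ring.jacobson A) →ₗ[A] S' := (Ring.jacobson A).liftQ f₀ hJ
  let g : (Π₀ i, S i) →ₗ[A] S' := f ∘ₗ e.symm.toLinearMap
  have hg : ∃ i, g ∘ₗ DFinsupp.lsingle i ≠ 0 := by
    by_contra hcon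
    have hall : ∀ i, g ∘ₗ DFinsupp.lsingle i = 0 := by
      intro i
      by_contra hi
      exact hcon ⟨i, hi⟩
    have hg0 : g = 0 := by
      apply DFinsupp.lhom_ext'
      intro i
      rw [hall i]
      simp
    have h1 : f (Submodule.Quotient.mk 1) = s := by
      show f₀ 1 = s
      simp [f₀]
    have h2 : g (e (Submodule.Quotient.mk 1)) = s := by
      show f (e.symm (e (Submodule.Quotient.mk 1))) = s
      rw [LinearEquiv.symm_apply_apply]
      exact h1
    rw [hg0] at h2
    exact hs h2.symm
  obtain ⟨i, hi⟩ := hg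
  have : IsSimpleModule A (S i) := hS i
  have hbij : Function.Bijective (g ∘ₗ DFinsupp.lsingle i) :=
    (LinearMap.bijective_or_eq_zero _).resolve_right hi
  obtain ⟨e'⟩ := hI i
  exact ⟨i, ⟨(LinearEquiv.ofBijective _ hbij).symm.trans e'⟩⟩

/-- Finitely generated modules killed by the radical are finite products of the `A ⧸ I k`. -/
theorem killed_decomp [IsArtinianRing A] {r : ℕ} (I : Fin r → Ideal A)
    (hI : ∀ (S : Type u) [AddCommGroup S] [Module A S] [IsSimpleModule A S],
      ∃ k, Nonempty (S ≃ₗ[A] (A ⧸ I k)))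
    (N : Type u) [AddCommGroup N] [Module A N] [Module.Finite A N]
    (h : ∀ a ∈ Ring.jacobson A, ∀ x : N, a • x = 0) :
    ∃ (n : ℕ) (σ : Fin n → Fin r), Nonempty (N ≃ₗ[A] (∀ c : Fin n, A ⧸ I (σ c))) := by
  classical
  have := semisimple_of_killed' N h
  obtain ⟨n, S, e, hS⟩ := IsSemisimpleModule.exists_linearEquiv_fin_dfinsupp A N
  have hs : ∀ c, ∃ k, Nonempty (S c ≃ₗ[A] (A ⧸ I k)) := fun c => by
    have := hS c
    exact hI (S c)
  choose σ hσ using hs
  exact ⟨n, σ, ⟨e.trans ((DFinsupp.linearEquivFunOnFintype).trans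
    (LinearEquiv.piCongrRight fun c => Classical.choice (hσ c)))⟩⟩

end family

section homlen

variable {R : Type v} [CommRing R] {A : Type u} [Ring A] [Algebra R A]
variable {K N : Type u} [AddCommGroup K] [Module A K] [AddCommGroup N] [Module A N]
  [Module R N] [IsScalarTower R A N]

/-- Homomorphisms into a finite product of cyclic modules. -/
theorem hom_pi_length' {n r : ℕ} (I : Fin r → Ideal A) (σ : Fin n → Fin r)
    (e : N ≃ₗ[A] (∀ c : Fin n, A ⧸ I (σ c))) :
    Module.length R (K →ₗ[A] N) = ∑ c, Module.length R (K →ₗ[A] (A ⧸ I (σ c))) := by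
  let φ : (K →ₗ[A] N) ≃ₗ[R] (∀ c : Fin n, (K →ₗ[A] (A ⧸ I (σ c)))) :=
    { toFun := fun g c => (LinearMap.proj c) ∘ₗ e.toLinearMap ∘ₗ g
      invFun := fun h => e.symm.toLinearMap ∘ₗ LinearMap.pi h
      left_inv := fun g => by
        ext k
        simp only [LinearMap.comp_apply, LinearEquiv.coe_coe]
        rw [LinearEquiv.symm_apply_eq]
        ext c
        simp
      right_inv := fun h => by
        ext c k
        simp
      map_add' := fun g g' => by
        ext c k
        simp
      map_smul' := fun r g => by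
        ext c k
        have h1 : e (r • g k) = r • e (g k) := LinearMap.map_smul_of_tower e.toLinearMap r (g k)
        show e (r • g k) c = r • e (g k) c
        rw [h1]
        rfl }
  have h := LinearEquiv.length_eq (R := R) (M := (K →ₗ[A] N))
    (N := (∀ c : Fin n, (K →ₗ[A] (A ⧸ I (σ c))))) φ
  rw [h, Module.length_pi_of_fintype]

end homlen

section stab

/-- In a finite-dimensional space some term of a sequence lies in the span of the later
terms. -/
theorem exists_mem_span_later {E : Type*} [AddCommGroup E] [Module ℚ E] [FiniteDimensional ℚ E]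
    (p : ℕ → E) : ∃ N, 1 ≤ N ∧ p N ∈ Submodule.span ℚ (p '' {m | N + 1 ≤ m}) := by
  let Z : ℕ →o (Submodule ℚ E)ᵒᵈ :=
    ⟨fun N => OrderDual.toDual (Submodule.span ℚ (p '' {m | N ≤ m})), fun a b hab => by
      show Submodule.span ℚ (p '' {m | b ≤ m}) ≤ Submodule.span ℚ (p '' {m | a ≤ m})
      apply Submodule.span_mono
      apply Set.image_mono
      intro m hm
      exact le_trans hab hm⟩
  obtain ⟨n, hn⟩ := IsArtinian.monotone_stabilizes Z
  refine ⟨n + 1, by omega, ?_⟩
  have h1 : Z (n + 1) = Z (n + 2) := (hn (n + 1) (by omega)).symm.trans (hn (n + 2) (by omega))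
  have h2 : p (n + 1) ∈ Submodule.span ℚ (p '' {m | n + 1 ≤ m}) :=
    Submodule.subset_span (Set.mem_image_of_mem p (show n + 1 ∈ {m | n + 1 ≤ m} from le_refl (n + 1)))
  have h3 : Submodule.span ℚ (p '' {m | n + 1 ≤ m}) = Submodule.span ℚ (p '' {m | n + 2 ≤ m}) :=
    h1
  rw [h3] at h2
  exact h2

end stab

end Vale.Agent.H47.ARC
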