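import Vale.Agent.H47.Findim.MinPres

/-!
# Local rings (not necessarily commutative): the unique simple module

In a local ring all maximal left ideals coincide with the Jacobson radical, every simple module is
isomorphic to `A ⧸ rad A`, and over a left artinian local ring every finitely generated module
killed by the radical is a finite power of `A ⧸ rad A`.
-/

universe u

namespace Vale.Agent.H47.ARC

open Vale.Agent.H47.Findim

variable {A : Type u} [Ring A]

theorem max_unique [IsLocalRing A] {m m' : Ideal A} (hm : m.IsMaximal) (hm' : m'.IsMaximal) :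
    m = m' := by
  by_contra hne
  have hsup : m ⊔ m' = ⊤ := hm.coprime_of_ne hm' hne
  have h1 : (1 : A) ∈ m ⊔ m' := by rw [hsup]; trivial
  obtain ⟨a, ha, b, hb, hab⟩ := Submodule.mem_sup.mp h1
  rcases IsLocalRing.isUnit_or_isUnit_of_add_one hab with h | h
  · exact hm.ne_top (Ideal.eq_top_of_isUnit_mem _ ha h)
  · exact hm'.ne_top (Ideal.eq_top_of_isUnit_mem _ hb h)

theorem jacobson_eq_of_max [IsLocalRing A] {m : Ideal A} (hm : m.IsMaximal) :
    Ring.jacobson A = m := by
  rw [Ring.jacobson_eq_sInf_isMaximal]
  apply le_antisymm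
  · exact sInf_le hm
  · apply le_sInf
    intro m' hm'
    rw [max_unique hm hm']

/-- Over a local ring every simple module is isomorphic to `A ⧸ rad A`. -/
theorem simple_equiv [IsLocalRing A] (S : Type u) [AddCommGroup S] [Module A S]
    [IsSimpleModule A S] : Nonempty (S ≃ₗ[A] (A ⧸ Ring.jacobson A)) := by
  obtain ⟨m, hm, ⟨e⟩⟩ := isSimpleModule_iff_quot_maximal.mp (inferInstance : IsSimpleModule A S)
  rw [jacobson_eq_of_max hm]
  exact ⟨e⟩

theorem semisimple_of_killed' [IsArtinianRing A] (X : Type u) [AddCommGroup X] [Module A X]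
    (h : ∀ r ∈ Ring.jacobson A, ∀ x : X, r • x = 0) : IsSemisimpleModule A X := by
  have h' : Module.IsTorsionBySet A X (Ring.jacobson A) := by
    intro x r
    exact h r.1 r.2 x
  let _ := h'.module
  exact (h'.semilinearMap.isSemisimpleModule_iff_of_bijective Function.bijective_id).2
    inferInstance

/-- Over a left artinian local ring, a finitely generated module killed by the radical is a
finite power of the simple module `A ⧸ rad A`. -/
theorem killed_equiv_pi [IsLocalRing A] [IsArtinianRing A] (N : Type u) [AddCommGroup N]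
    [Module A N] [Module.Finite A N] (h : ∀ r ∈ Ring.jacobson A, ∀ x : N, r • x = 0) :
    ∃ t : ℕ, Nonempty (N ≃ₗ[A] (Fin t → A ⧸ Ring.jacobson A)) := by
  classical
  have := semisimple_of_killed' N h
  obtain ⟨n, S, e, hS⟩ := IsSemisimpleModule.exists_linearEquiv_fin_dfinsupp A N
  have hs : ∀ i, Nonempty (S i ≃ₗ[A] (A ⧸ Ring.jacobson A)) := fun i => by
    have := hS i
    exact simple_equiv (S i)
  exact ⟨n, ⟨e.trans ((DFinsupp.linearEquivFunOnFintype).trans
    (LinearEquiv.piCongrRight fun i => Classical.choice (hs i)))⟩⟩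

end Vale.Agent.H47.ARC
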